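import Vale.Agent.P363.M.Ovl

/-!
# P363 M/Cor  (TASK; helper names end in `_Cor`)

`d = (slotFib 0 ψ).pr (prd ![z, o0, z]).mem`, `ip (orb j) d = ip (prd ![orb j, z, o0, z]) ψ` (`ip_tens`, `prd_eq_tens`, `ip_congr`).  `j = 2, 3`: zero by parity under `rf 0`, `rf 1`
(`exists_sym_rfN`, `Sym.integral_odd`, `orb_rf`); `j = 4`: `ip_prd_eq`.  So `d - b • o0 = rem d + m • o1`, `hn_add_le`, `Fib.hn_rem_pr`, `hn_smul`; `C = 2 + 2 hn (orb 1)`.
`2 m² ≤ 1 - occ 0 o0 - occ 1 o0 ≤ δ`: `occ_add_le` with `t = m • (prd ![o1,z,o0,z] - prd ![z,o1,o0,z])` (`ip_prd_swap`: `ip (ψ - t) (ψ - t) = 1 - 2 m²`; `red` vanishes pointwise by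
`integral_mul_const`, `ip_orb`), and `occ 2 o0 + occ 3 o0 ≤ 1` (`pauli`).  Size of `b`: `ip_prd_det4`, `near_prd`, Cauchy-Schwarz `bil_ip.cs`: `|b - 1/2| ≤ 1/10 + 1/10`.
-/

open MeasureTheory Filter Topology Set
open scoped ContDiff

set_option linter.unusedSectionVars false

noncomputable section

namespace Vale.Agent.P363

theorem ipd_Cor (χ a b c : S e3) (ψ : S (eN 4)) :
    ip χ ((slotFib 0 ψ).pr (prd ![a, b, c]).mem) = ip (prd ![χ, a, b, c]) ψ := by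
  rw [← ip_tens]
  refine ip_congr (ae_of_all _ fun X => ?_) ψ
  rw [tens_f, prd_f, prd_f, Fin.prod_univ_three, Fin.prod_univ_four]
  show χ.f (X 0) * (a.f (X 1) * b.f (X 2) * c.f (X 3)) =
    χ.f (X 0) * a.f (X 1) * b.f (X 2) * c.f (X 3)
  ring

theorem f4_Cor (a b c d : S e3) (X : Cfg 4) :
    (prd ![a, b, c, d]).f X = a.f (X 0) * b.f (X 1) * c.f (X 2) * d.f (X 3) := by
  rw [prd_f, Fin.prod_univ_four]
  rfl

theorem ip4_Cor (a b c d a' b' c' d' : S e3) : ip (prd ![a, b, c, d]) (prd ![a', b', c', d']) =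
    ip a a' * ip b b' * ip c c' * ip d d' := by
  rw [ip_prd, Fin.prod_univ_four]
  rfl

theorem par_Cor {ψ : S (eN 4)} (k : Fin 3) (h : ∀ᵐ X : Cfg 4, ψ.f (fun i => rf k (X i)) = ψ.f X) :
    ip (prd ![orb (k.addNat 2), orb 4, orb 0, orb 4]) ψ = 0 := by
  obtain ⟨T, hT⟩ := exists_sym_rfN 4 k
  rw [bil_ip.symm]
  refine (hT.qf_odd (U := fun _ => 0) (fun _ => rfl) h (ae_of_all _ fun X => ?_)).2.1
  have h0 : (0 : Fin 5) ≠ k.addNat 2 := by
    intro e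
    have := congrArg Fin.val e
    simp at this
  simp only [f4_Cor, orb_rf, if_true, if_neg h0]
  split_ifs <;> ring

theorem red_Cor {n : ℕ} (i : Fin (n + 1)) {φ : S e3} {θ θ' : Fin (n + 1) → S e3}
    (h : ip φ (θ i) = 0) (h' : ip φ (θ' i) = 0) (m : ℝ) (Y : Cfg n) :
    red i φ.f (m • (prd θ - prd θ')).f Y = 0 := by
  have e : (fun x => φ.f x * (m • (prd θ - prd θ')).f (Fin.insertNth i x Y)) = fun x =>
      φ.f x * (θ i).f x * (m * ∏ l, (θ (i.succAbove l)).f (Y l)) -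
        φ.f x * (θ' i).f x * (m * ∏ l, (θ' (i.succAbove l)).f (Y l)) := by
    funext x
    simp only [S.smul_f, S.sub_f, prd_f, Fin.prod_univ_succAbove _ i, Fin.insertNth_apply_same,
      Fin.insertNth_apply_succAbove]
    ring
  unfold ip at h h'
  unfold red
  rw [e, integral_sub ((S.int_mul _ _).mul_const _) ((S.int_mul _ _).mul_const _),
    integral_mul_const, integral_mul_const, h, h', zero_mul, zero_mul, sub_zero]

theorem red2_Cor {φ a b : S e3} (ha : ip φ a = 0) (hb : ip φ b = 0) (c d : S e3) (m : ℝ) :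
    (∀ Y, red 0 φ.f (m • (prd ![a, b, c, d] - prd ![b, a, c, d])).f Y = 0) ∧
      ∀ Y, red 1 φ.f (m • (prd ![a, b, c, d] - prd ![b, a, c, d])).f Y = 0 :=
  ⟨red_Cor (θ := ![a, b, c, d]) (θ' := ![b, a, c, d]) 0 ha hb m,
    red_Cor (θ := ![a, b, c, d]) (θ' := ![b, a, c, d]) 1 hb ha m⟩

theorem o1_Cor (j : Fin 5) : ip (orb j) (orb j) = 1 := by rw [ip_orb, if_pos rfl]

theorem o0_Cor {i j : Fin 5} (h : i ≠ j) : ip (orb i) (orb j) = 0 := by rw [ip_orb, if_neg h]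

theorem mix_Cor {ψ : S (eN 4)} (h1 : ip ψ ψ = 1) (h01 : Anti 0 1 ψ.f) (h23 : Anti 2 3 ψ.f) :
    ∑ i, occ i (orb 0).f ψ.f ≤ 2 - 2 * ip (prd ![orb 1, orb 4, orb 0, orb 4]) ψ ^ 2 := by
  obtain ⟨m, hm⟩ : ∃ m, ip (prd ![orb 1, orb 4, orb 0, orb 4]) ψ = m := ⟨_, rfl⟩
  have hq : ip (prd ![orb 4, orb 1, orb 0, orb 4]) ψ = -m := by
    rw [← hm, ← ip_prd_swap h01]
    congr 2
    funext i
    fin_cases i <;> rfl
  have ht : Anti 0 1 (m • (prd ![orb 1, orb 4, orb 0, orb 4] -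
      prd ![orb 4, orb 1, orb 0, orb 4])).f := by
    refine ae_of_all _ fun X => ?_
    have e2 : Equiv.swap (0 : Fin 4) 1 2 = 2 := by decide
    have e3 : Equiv.swap (0 : Fin 4) 1 3 = 3 := by decide
    simp only [S.smul_f, S.sub_f, f4_Cor, Function.comp, Equiv.swap_apply_left,
      Equiv.swap_apply_right, e2, e3]
    ring
  have k1 := occ_add_le (i := (0 : Fin 4)) (j := 1) (by decide) (o1_Cor 0) h01 ht
    (red2_Cor (o0_Cor (by decide)) (o0_Cor (by decide)) _ _ m).1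
    (red2_Cor (o0_Cor (by decide)) (o0_Cor (by decide)) _ _ m).2
  rw [bil_ip.sub_sq, h1, bil_ip.smul_sq, bil_ip.sub_sq, bil_ip.symm ψ, bil_ip.smul,
    bil_ip.sub_left, hm, hq, ip4_Cor, ip4_Cor, ip4_Cor, o1_Cor, o1_Cor, o1_Cor,
    o0_Cor (i := 1) (j := 4) (by decide)] at k1
  have k2 := pauli ({2, 3} : Finset (Fin 4)) ψ.mem (fun i hi j hj hij => by
    simp only [Finset.mem_insert, Finset.mem_singleton] at hi hj
    rcases hi with rfl | rfl <;> rcases hj with rfl | rfl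
    · exact absurd rfl hij
    · exact h23
    · exact h23.symm
    · exact absurd rfl hij) (orb 0).mem
  rw [Finset.sum_pair (by decide), ← ip_self, ← ip_self, h1, o1_Cor] at k2
  rw [Fin.sum_univ_four, hm]
  linarith

theorem small_Cor {x : ℝ} (h : x ^ 2 ≤ 1 / 100) : -(1 / 10) ≤ x := by nlinarith

theorem core_main : ∃ C : ℝ, 0 < C ∧ ∀ (g : S e3) (ψ : S (eN 4)) (δ : ℝ), ip g g = 1 →
    ip g (orb 4) = 0 → hn (g - orb 0) ≤ 1 / 200 → ip ψ ψ = 1 → Anti 0 1 ψ.f → Anti 2 3 ψ.f →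
    (∀ k, ∀ᵐ X : Cfg 4, ψ.f (fun i => rf k (X i)) = ψ.f X) →
    ip (ψ - det4 g (orb 4)) (ψ - det4 g (orb 4)) ≤ 1 / 100 → (slotFib 0 ψ).defect ≤ δ →
    2 - δ ≤ ∑ i, occ i (orb 0).f ψ.f → ∃ b : ℝ, 1 / 4 ≤ |b| ∧
      hn ((slotFib 0 ψ).pr (prd ![orb 4, orb 0, orb 4]).mem - b • orb 0) ≤ C * δ := by
  refine ⟨2 + hn (orb 1), by have := hn_nonneg (orb 1); linarith,
    fun g ψ δ g1 g4 hg h1 h01 h23 hr hd hδ ho => ⟨ip (prd ![orb 0, orb 4, orb 0, orb 4]) ψ, ?_, ?_⟩⟩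
  · have k1 := bil_ip.cs ip_nonneg
      (prd ![orb 0, orb 4, orb 0, orb 4] - prd ![g, orb 4, g, orb 4]) ψ
    have k2 := bil_ip.cs ip_nonneg (prd ![g, orb 4, g, orb 4]) (ψ - det4 g (orb 4))
    have k3 := near_prd g1 hg
    rw [h1, mul_one] at k1
    rw [ip4_Cor, g1, o1_Cor] at k2
    have k4 := small_Cor (k1.trans (by linarith))
    have k5 := small_Cor (k2.trans (by linarith))
    rw [bil_ip.sub_left] at k4
    rw [bil_ip.sub_right, ip_prd_det4 g1 (o1_Cor 4) g4] at k5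
    exact le_trans (by linarith) (le_abs_self _)
  · have e : (slotFib 0 ψ).pr (prd ![orb 4, orb 0, orb 4]).mem -
        ip (prd ![orb 0, orb 4, orb 0, orb 4]) ψ • orb 0 =
        rem ((slotFib 0 ψ).pr (prd ![orb 4, orb 0, orb 4]).mem) +
          ip (prd ![orb 1, orb 4, orb 0, orb 4]) ψ • orb 1 := by
      have e2 : ip (prd ![orb 2, orb 4, orb 0, orb 4]) ψ = 0 := par_Cor 0 (hr 0)
      have e3 : ip (prd ![orb 3, orb 4, orb 0, orb 4]) ψ = 0 := par_Cor 1 (hr 1)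
      have e4 : ip (prd ![orb 4, orb 4, orb 0, orb 4]) ψ = 0 := ip_prd_eq h01 rfl
      rw [rem, Fin.sum_univ_five, ipd_Cor, ipd_Cor, ipd_Cor, ipd_Cor, ipd_Cor, e2, e3, e4,
        zero_smul, zero_smul, zero_smul]
      abel
    have k1 := (slotFib 0 ψ).hn_rem_pr (prd ![orb 4, orb 0, orb 4]).mem
    have k2 : ∫ y, (prd ![orb 4, orb 0, orb 4]).f y ^ 2 = 1 := by
      rw [← ip_self, ip_prd]
      exact Finset.prod_eq_one fun i _ => by fin_cases i <;> exact o1_Cor _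
    rw [k2, mul_one] at k1
    have k3 := mix_Cor h1 h01 h23
    rw [e]
    refine (hn_add_le _ _).trans ?_
    rw [hn_smul]
    have k4 := mul_le_mul_of_nonneg_right
      (show 2 * ip (prd ![orb 1, orb 4, orb 0, orb 4]) ψ ^ 2 ≤ δ by linarith) (hn_nonneg (orb 1))
    linarith

end Vale.Agent.P363
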