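import Vale.Agent.P363.M.Det

/-!
# P363 M/Coul  (TASK; helper names end in `_Coul`)

`integral_split`: `(mp_ins j).integral_comp (emb_ins j)`, `integral_prod_mul`.  `wee_pos`: expand `det4` (`fb_Wee.bil_pot`) and `Wee` (six pairs, `pot_sum`, `fb_pair`).  A term
`pot (1 / ‖X i - X k‖) thet (prd φ)` vanishes if a spectator slot `j` carries two different orbitals (`integral_split`, `ip_orb`); only the pair `(0, 2)` of `prd ![z, o0, z, o0]` survives.
Split off slots `3` and `1` (`ip (orb 0) (orb 0) = 1`), pass from `Cfg 2` to `E3 × E3` (`volume_preserving_finTwoArrow`), `coul_pos` for `a = orb 1 * orb 4` (`mul_bdd`, `abs_orb_le`,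
`S.int_mul`; `ip a a ≠ 0` since `raw 1 * raw 4 ≠ 0` a.e.: `ae_norm_ne 2`, `ae_coord_ne 2 0`; integrability from `(fb_pair 0 1).int (prd ![o1, o1]) (prd ![z, z])`).
`wee_near`: `ψ = det4 o0 z + (det4 g z - det4 o0 z) + (ψ - det4 g z)`, `near_det4`, `|pot Wee thet r| ≤ ‖Wee thet‖₂ ‖r‖₂` (`memLp_Wee`, Cauchy-Schwarz).
-/

open MeasureTheory Filter Topology Set
open scoped ContDiff

set_option linter.unusedSectionVars false

noncomputable section

namespace Vale.Agent.P363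

theorem integral_split {n : ℕ} (j : Fin (n + 1)) (u : E3 → ℝ) (H : Cfg n → ℝ) :
    ∫ X : Cfg (n + 1), u (X j) * H (Fin.removeNth j X) = (∫ x, u x) * ∫ Y, H Y := by
  rw [← (mp_ins j).integral_comp (emb_ins j)]
  simp only [Fin.insertNth_apply_same, Fin.removeNth_insertNth]
  exact integral_prod_mul u H
theorem split_Coul {n : ℕ} (j : Fin (n + 1)) {U : Cfg (n + 1) → ℝ} {U' : Cfg n → ℝ}
    (hU : ∀ X, U X = U' (Fin.removeNth j X)) {θ φ : Fin (n + 1) → S e3} {θ' φ' : Fin n → S e3}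
    (h1 : ∀ l, θ (j.succAbove l) = θ' l) (h2 : ∀ l, φ (j.succAbove l) = φ' l) :
    pot U (prd θ) (prd φ) = ip (θ j) (φ j) * pot U' (prd θ') (prd φ') := by
  unfold pot ip
  rw [← integral_split j]
  refine integral_congr_ae (ae_of_all _ fun X => ?_)
  simp only [prd_f, Fin.prod_univ_succAbove _ j, hU, h1, h2, Fin.removeNth]
  ring

theorem zero_Coul {n : ℕ} {j i k : Fin (n + 1)} (hi : i ≠ j) (hk : k ≠ j)
    {θ φ : Fin (n + 1) → S e3} (h : ip (θ j) (φ j) = 0) :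
    pot (fun X => 1 / ‖X i - X k‖) (prd θ) (prd φ) = 0 := by
  obtain ⟨i', rfl⟩ := Fin.exists_succAbove_eq hi
  obtain ⟨k', rfl⟩ := Fin.exists_succAbove_eq hk
  rw [split_Coul j (U := fun X => 1 / ‖X (j.succAbove i') - X (j.succAbove k')‖)
    (U' := fun Y => 1 / ‖Y i' - Y k'‖) (fun _ => rfl) (fun _ => rfl)
    (fun _ => rfl), h, zero_mul]

theorem sum_Coul {n : ℕ} (a b : S (eN n)) :
    pot Wee a b = ∑ i, ∑ k ∈ Finset.Ioi i, pot (fun X => 1 / ‖X i - X k‖) a b := by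
  have h := pot_sum (e := eN n) Finset.univ
    (U := fun i X => ∑ k ∈ Finset.Ioi i, 1 / ‖X i - X k‖)
    (fun i _ => fb_sum _ fun k _ => fb_pair i k) a b
  refine h.trans (Finset.sum_congr rfl fun i _ => ?_)
  exact pot_sum _ (fun k _ => fb_pair i k) a b

theorem three_Coul {θ φ : Fin 4 → S e3} {a b c : Fin 4} (hab : a ≠ b) (hac : a ≠ c) (hbc : b ≠ c)
    (ha : ip (θ a) (φ a) = 0) (hb : ip (θ b) (φ b) = 0) (hc : ip (θ c) (φ c) = 0) :
    pot Wee (prd θ) (prd φ) = 0 := by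
  rw [sum_Coul]
  refine Finset.sum_eq_zero fun i _ => Finset.sum_eq_zero fun k _ => ?_
  by_cases h1 : i ≠ a ∧ k ≠ a
  · exact zero_Coul h1.1 h1.2 ha
  by_cases h2 : i ≠ b ∧ k ≠ b
  · exact zero_Coul h2.1 h2.2 hb
  refine zero_Coul (j := c) ?_ ?_ hc
  · rintro rfl
    omega
  · rintro rfl
    omega

theorem two_Coul {θ φ : Fin 4 → S e3} (ha : ip (θ 0) (φ 0) = 0) (hb : ip (θ 2) (φ 2) = 0) :
    pot Wee (prd θ) (prd φ) = pot (fun X => 1 / ‖X 0 - X 2‖) (prd θ) (prd φ) := by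
  rw [sum_Coul, Finset.sum_eq_single 0, Finset.sum_eq_single_of_mem 2 (by decide)]
  · intro k hk h2
    exact zero_Coul (by decide) h2 hb
  · intro i _ hi
    refine Finset.sum_eq_zero fun k hk => zero_Coul hi ?_ ha
    exact (lt_of_le_of_lt (Fin.zero_le i) (Finset.mem_Ioi.1 hk)).ne'
  · intro h
    exact absurd (Finset.mem_univ _) h

theorem pair_Coul : 0 < pot (fun X => 1 / ‖X 0 - X 1‖) (prd ![orb 1, orb 1]) (prd ![orb 4, orb 4]) := by
  obtain ⟨C, hC, h⟩ := abs_orb_le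
  have hb : ∀ j, ∀ᵐ x, |(orb j).f x| ≤ C := fun j => ae_of_all _ fun x => (h j x).1.trans
    (mul_le_of_le_one_right hC.le (Real.exp_le_one_iff.2 (by have := norm_nonneg x; linarith)))
  obtain ⟨a, ha⟩ : ∃ a : S e3, ∀ x, a.f x = (orb 1).f x * (orb 4).f x :=
    ⟨S.of (mul_bdd (orb 1) (orb 4) (hb 1) (hb 4)), fun _ => rfl⟩
  have hi : Integrable a.f := by
    rw [funext ha]
    exact S.int_mul _ _
  have hne : ip a a ≠ 0 := by
    intro h0
    obtain ⟨x, h1, h2, h3⟩ := ((ip_eq_zero.1 h0).and ((ae_norm_ne 2).and (ae_coord_ne 2 0))).exists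
    have e4 : raw 4 x = x 2 * Real.exp (-‖x‖ / 2) := raw_p 2 x
    rw [ha, orb_f, orb_f, raw_one, e4] at h1
    have h4 : 1 - ‖x‖ / 2 ≠ 0 := fun e => h2 (by linarith)
    exact mul_ne_zero (mul_ne_zero (nrm_pos 1).ne' (mul_ne_zero h4 (Real.exp_pos _).ne'))
      (mul_ne_zero (nrm_pos 4).ne' (mul_ne_zero h3 (Real.exp_pos _).ne')) h1
  have mp := volume_preserving_finTwoArrow E3
  have e : (fun X : Cfg 2 => 1 / ‖X 0 - X 1‖ *
      ((prd ![orb 1, orb 1]).f X * (prd ![orb 4, orb 4]).f X)) =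
      (fun z : E3 × E3 => 1 / ‖z.1 - z.2‖ * (a.f z.1 * a.f z.2)) ∘
        (MeasurableEquiv.finTwoArrow : (Fin 2 → E3) ≃ᵐ E3 × E3) := by
    funext X
    simp only [prd_f, Fin.prod_univ_two, Function.comp, ha, Matrix.cons_val_zero,
      Matrix.cons_val_one, MeasurableEquiv.finTwoArrow_apply]
    ring
  have h1 := (fb_pair (0 : Fin 2) 1).int (prd ![orb 1, orb 1]) (prd ![orb 4, orb 4])
  rw [e] at h1
  have h2 := coul_pos a hi hne
    ((mp.integrable_comp_emb (MeasurableEquiv.measurableEmbedding _)).1 h1)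
  unfold pot
  rw [e]
  exact h2.trans_eq (mp.integral_comp' _).symm

theorem red_Coul {p s z : S e3} (ps : ip p s = 0) (pz : ip p z = 0) (sz : ip s z = 0)
    (ss : ip s s = 1) : pot Wee (prd ![p, s, p, s]) (det4 s z) =
      1 / 2 * pot (fun X => 1 / ‖X 0 - X 1‖) (prd ![p, p]) (prd ![z, z]) := by
  have B := fb_Wee (n := 4) |>.bil_pot
  have h1 : pot Wee (prd ![p, s, p, s]) (prd ![s, z, s, z]) = 0 :=
    three_Coul (a := 0) (b := 1) (c := 2) (by decide) (by decide) (by decide) ps sz ps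
  have h2 : pot Wee (prd ![p, s, p, s]) (prd ![s, z, z, s]) = 0 :=
    three_Coul (a := 0) (b := 1) (c := 2) (by decide) (by decide) (by decide) ps sz pz
  have h3 : pot Wee (prd ![p, s, p, s]) (prd ![z, s, s, z]) = 0 :=
    three_Coul (a := 0) (b := 2) (c := 3) (by decide) (by decide) (by decide) pz ps sz
  have h4 : pot Wee (prd ![p, s, p, s]) (prd ![z, s, z, s]) =
      pot (fun X => 1 / ‖X 0 - X 2‖) (prd ![p, s, p, s]) (prd ![z, s, z, s]) := two_Coul pz pz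
  have h5 : pot (fun X => 1 / ‖X 0 - X 2‖) (prd ![p, s, p, s]) (prd ![z, s, z, s]) =
      ip s s * pot (fun X => 1 / ‖X 0 - X 2‖) (prd ![p, s, p]) (prd ![z, s, z]) :=
    split_Coul (n := 3) 3 (U := fun X => 1 / ‖X 0 - X 2‖) (U' := fun X => 1 / ‖X 0 - X 2‖)
      (θ := ![p, s, p, s]) (φ := ![z, s, z, s]) (θ' := ![p, s, p]) (φ' := ![z, s, z])
      (fun _ => rfl) (fun l => by fin_cases l <;> rfl) (fun l => by fin_cases l <;> rfl)
  have h6 : pot (fun X => 1 / ‖X 0 - X 2‖) (prd ![p, s, p]) (prd ![z, s, z]) =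
      ip s s * pot (fun X => 1 / ‖X 0 - X 1‖) (prd ![p, p]) (prd ![z, z]) :=
    split_Coul (n := 2) 1 (U := fun X => 1 / ‖X 0 - X 2‖) (U' := fun X => 1 / ‖X 0 - X 1‖)
      (θ := ![p, s, p]) (φ := ![z, s, z]) (θ' := ![p, p]) (φ' := ![z, z])
      (fun _ => rfl) (fun l => by fin_cases l <;> rfl) (fun l => by fin_cases l <;> rfl)
  rw [det4, B.smul_right, B.add_right, B.sub_right, B.sub_right, h1, h2, h3, h4, h5, h6, ss]
  ring

theorem wee_pos : 0 < pot Wee thet (det4 (orb 0) (orb 4)) := by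
  have o : ∀ i j : Fin 5, i ≠ j → ip (orb i) (orb j) = 0 := fun i j h => by rw [ip_orb, if_neg h]
  have o0 : ip (orb 0) (orb 0) = 1 := by rw [ip_orb, if_pos rfl]
  rw [thet, red_Coul (o 1 0 (by decide)) (o 1 4 (by decide)) (o 0 4 (by decide)) o0]
  exact mul_pos (by norm_num) pair_Coul
theorem wee_near : ∃ K W : ℝ, 0 < K ∧ 0 < W ∧ ∀ (g : S e3) (ψ : S (eN 4)) (θ : ℝ), ip g g = 1 →
    ip g (orb 4) = 0 → hn (g - orb 0) ≤ θ →
    ip (ψ - det4 g (orb 4)) (ψ - det4 g (orb 4)) ≤ 2 * θ → K - W * √θ ≤ pot Wee thet ψ := by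
  have B := fb_Wee (n := 4) |>.bil_pot
  obtain ⟨A, hA, hb⟩ : ∃ A : ℝ, 0 ≤ A ∧ ∀ (r : S (eN 4)) (θ : ℝ), ip r r ≤ 2 * θ →
      |pot Wee thet r| ≤ A * (2 * √θ) := by
    refine ⟨_, Real.sqrt_nonneg (∫ X, (Wee X * thet.f X) ^ 2), fun r θ hr => ?_⟩
    have h1 := fib2_cs (memLp_Wee thet).1 r.mem
    have e : pot Wee thet r = ∫ X, Wee X * thet.f X * r.f X := by
      simp only [pot, mul_assoc]
    rw [e]
    refine h1.trans (mul_le_mul_of_nonneg_left ?_ (Real.sqrt_nonneg _))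
    rw [← ip_self]
    have h0 := ip_nonneg r
    refine Real.sqrt_le_iff.2 ⟨by positivity, ?_⟩
    rw [mul_pow, Real.sq_sqrt (by linarith)]
    linarith
  refine ⟨_, 4 * A + 1, wee_pos, by positivity, fun g ψ θ h1 h2 h3 h4 => ?_⟩
  have k1 := abs_le.1 (hb _ _ h4)
  have k2 := abs_le.1 (hb _ _ (near_det4 h1 h2 h3))
  rw [B.sub_right] at k1 k2
  have := Real.sqrt_nonneg θ
  linarith [k1.1, k2.1]

end Vale.Agent.P363
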