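import Vale.Agent.P363.M.Low

/-!
# P363 M/Dfc  (TASK; helper names end in `_Dfc`)

Defects.  `Fib.defect_le` for `slotFib i ψ` with `one_body_rem` (`slotFib_n`, `integral_rho`, `slotFib_gam`), sum over the four slots (`qf_slots`, `qf_UN`, `pot_Wee_nonneg`):
`γ ∑ defect + 3/8 (2 - ∑ occ o0) ≤ E + 5/4 + 4 C₂ R²`; both terms on the left are nonnegative (`defect_nonneg`, `pauli` for `{0,1}` and `{2,3}`).
`hyd_le`: the last part of `crystal` says `-ip a a ≤ qf U a a` for `U = (C R)⁻¹ * dV R`; `lift_slot` (with `κ = Fin 0` or `Empty`) gives `pot (∑ dV) ψ ψ ≥ -C R (4 + kin ψ ψ)`,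
`kin ψ ψ ≤ 32` by `kin_le_UN`; `V0 = VR - dV` (`pot_sub`, `pot_sum`, `FB.slots`).
-/

open MeasureTheory Filter Topology Set
open scoped ContDiff

set_option linter.unusedSectionVars false

noncomputable section

namespace Vale.Agent.P363

theorem pauli2_Dfc {ψ : S (eN 4)} (h : ip ψ ψ = 1) {i j : Fin 4} (hij : i ≠ j) (ha : Anti i j ψ.f) :
    occ i (orb 0).f ψ.f + occ j (orb 0).f ψ.f ≤ 1 := by
  have h1 := pauli (n := 3) {i, j} ψ.mem (fun a ha' b hb hab => by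
    simp only [Finset.mem_insert, Finset.mem_singleton] at ha' hb
    rcases ha' with rfl | rfl <;> rcases hb with rfl | rfl
    · exact absurd rfl hab
    · exact ha
    · exact ha.symm
    · exact absurd rfl hab) (orb 0).mem
  rw [Finset.sum_pair hij, ← ip_self, ← ip_self, h, ip_orb] at h1
  simpa using h1

theorem slot_Dfc {U : E3 → ℝ} (hU : FB e3 U) {γ c₀ c₁ : ℝ}
    (h : ∀ a : S e3, γ * hn (rem a) ≤ qf U a a + c₀ * ip a a + c₁ * ip (orb 0) a ^ 2)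
    {ψ : S (eN 4)} (hψ : ip ψ ψ = 1) :
    γ * ∑ i, (slotFib i ψ).defect ≤
      qf (fun X => ∑ i, U (X i)) ψ ψ + 4 * c₀ + c₁ * ∑ i, occ i (orb 0).f ψ.f := by
  have h1 := Finset.sum_le_sum fun i (_ : i ∈ Finset.univ) => (slotFib (n := 3) i ψ).defect_le hU h
  simp only [slotFib_n, integral_rho, slotFib_gam, hψ, Finset.sum_add_distrib, Finset.sum_const,
    Finset.card_univ, Fintype.card_fin, nsmul_eq_mul, ← Finset.mul_sum] at h1
  rw [qf_slots (n := 3) hU]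
  push_cast at h1
  linarith

theorem defects : ∃ C₃ R₁ : ℝ, 0 < C₃ ∧ 0 < R₁ ∧ ∀ (R lam δ : ℝ) (ψ : S (eN 4)), 0 < R → R ≤ R₁ →
    0 ≤ lam → ip ψ ψ = 1 → Anti 0 1 ψ.f → Anti 2 3 ψ.f → qf (UN R lam) ψ ψ ≤ -(5 / 4) + δ →
    0 ≤ δ → (∀ i, (slotFib i ψ).defect ≤ C₃ * (δ + R ^ 2)) ∧
      2 - C₃ * (δ + R ^ 2) ≤ ∑ i, occ i (orb 0).f ψ.f := by
  obtain ⟨γ, C, R₀, hγ, hC, hR₀, h⟩ := one_body_rem
  refine ⟨(γ⁻¹ + 8 / 3) * (1 + 4 * C), R₀, by positivity, hR₀,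
    fun R lam δ ψ hR hRR hl hψ h01 h23 hE hδ => ?_⟩
  have h1 := slot_Dfc (fb_VR R) (h R hR hRR) hψ
  have h2 := qf_UN R lam ψ ψ
  have h3 := mul_nonneg hl (pot_Wee_nonneg ψ)
  have h4 := pauli2_Dfc hψ (by decide) h01
  have h5 := pauli2_Dfc hψ (by decide) h23
  have h6 : ∑ i, occ i (orb 0).f ψ.f ≤ 2 := by
    rw [Fin.sum_univ_four]
    linarith
  have h7 : ∀ i, 0 ≤ (slotFib i ψ).defect := fun i => (slotFib (n := 3) i ψ).defect_nonneg
  have h8 : 0 ≤ ∑ i, (slotFib i ψ).defect := Finset.sum_nonneg fun i _ => h7 i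
  have hR2 : 0 ≤ R ^ 2 := sq_nonneg R
  have h9 : δ + 4 * (C * R ^ 2) ≤ (1 + 4 * C) * (δ + R ^ 2) := by
    have := mul_nonneg hC.le hδ
    nlinarith
  have h10 : 0 ≤ (1 + 4 * C) * (δ + R ^ 2) := by positivity
  have h11 : 0 ≤ γ⁻¹ * ((1 + 4 * C) * (δ + R ^ 2)) := by positivity
  have h12 := mul_nonneg hγ.le h8
  refine ⟨fun i => ?_, ?_⟩
  · have h13 : (slotFib i ψ).defect ≤ ∑ i, (slotFib i ψ).defect :=
      Finset.single_le_sum (f := fun i => (slotFib i ψ).defect) (fun j _ => h7 j)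
        (Finset.mem_univ i)
    have h14 : γ * ∑ i, (slotFib i ψ).defect ≤ (1 + 4 * C) * (δ + R ^ 2) := by linarith
    have h15 : ∑ i, (slotFib i ψ).defect ≤ γ⁻¹ * ((1 + 4 * C) * (δ + R ^ 2)) := by
      rw [le_inv_mul_iff₀ hγ]
      exact h14
    nlinarith
  · nlinarith
theorem hyd_le : ∃ C₃ R₁ : ℝ, 0 < C₃ ∧ 0 < R₁ ∧ ∀ (R lam : ℝ) (ψ : S (eN 4)), 0 < R → R ≤ R₁ →
    0 ≤ lam → ip ψ ψ = 1 → qf (UN R lam) ψ ψ ≤ 0 →
    qf (fun X => ∑ i, V0 (X i)) ψ ψ ≤ qf (UN R lam) ψ ψ + C₃ * R := by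
  obtain ⟨c, C, R₀, -, hC, hR₀, h⟩ := crystal
  refine ⟨36 * C, R₀, by positivity, hR₀, fun R lam ψ hR hRR hl hψ hE => ?_⟩
  have hCR : 0 < C * R := mul_pos hC hR
  have h1 := lift_slot (n := 3) ((fb_dV R).const_mul (C * R)⁻¹) (κ := Fin 0) Fin.elim0 Fin.elim0 (-1)
    (fun b => by
      have h2 := (abs_le.1 ((h R hR hRR).2.2.2.2 b)).1
      have h3 : -hn b ≤ (C * R)⁻¹ * pot (dV R) b b := by
        rw [le_inv_mul_iff₀ hCR]
        linarith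
      rw [qf, pot_const_mul, Fin.sum_univ_zero]
      rw [hn] at h3
      linarith) ψ
  simp only [← Finset.mul_sum] at h1
  rw [qf, pot_const_mul, Fin.sum_univ_zero, hψ] at h1
  have h2 := kin_le_UN R hl ψ
  rw [hψ] at h2
  push_cast at h1 h2
  have h3 : -36 ≤ (C * R)⁻¹ * pot (fun X : Cfg 4 => ∑ i, dV R (X i)) ψ ψ := by linarith
  rw [le_inv_mul_iff₀ hCR] at h3
  have h4 : pot (fun X : Cfg 4 => ∑ i, dV R (X i)) ψ ψ =
      pot (fun X : Cfg 4 => ∑ i, VR R (X i)) ψ ψ - pot (fun X : Cfg 4 => ∑ i, V0 (X i)) ψ ψ := by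
    rw [← pot_sub (fb_VR R).slots fb_V0.slots]
    simp only [dV, Finset.sum_sub_distrib]
  have h5 := qf_UN R lam ψ ψ
  have h6 := mul_nonneg hl (pot_Wee_nonneg ψ)
  rw [qf, qf] at h5
  rw [qf, qf]
  linarith
theorem occ_one_le {ψ : S (eN 4)} (h : ip ψ ψ = 1) : ∑ i, occ i (orb 1).f ψ.f ≤
    4 - ∑ i, occ i (orb 0).f ψ.f - ∑ i, occ i (orb 4).f ψ.f := by
  have h1 : ∀ i : Fin 4, occ i (orb 1).f ψ.f + occ i (orb 0).f ψ.f + occ i (orb 4).f ψ.f ≤ 1 :=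
    fun i => by
      have h2 := (slotFib (n := 3) i ψ).trace_le.1
      have h3 := (slotFib (n := 3) i ψ).gam_nonneg (orb 2).f
      have h4 := (slotFib (n := 3) i ψ).gam_nonneg (orb 3).f
      simp only [slotFib_n, integral_rho, slotFib_gam, h, Fin.sum_univ_five] at h2 h3 h4
      linarith
  have h5 := Finset.sum_le_sum fun i (_ : i ∈ Finset.univ) => h1 i
  simp only [Finset.sum_add_distrib, Finset.sum_const, Finset.card_univ, Fintype.card_fin,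
    nsmul_eq_mul] at h5
  push_cast at h5
  linarith

end Vale.Agent.P363
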