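import Vale.Agent.P363.M.Defs

/-!
# P363 M/Det  (TASK; helper names end in `_Det`)

Algebra of the trial states.  Unfold `det3`, `det4`; `bil_ip.smul`, `sub_left`, `add`, `ip_prd`, `qf_prd`, `Fin.prod_univ_three`, `Fin.prod_univ_four`, `Fin.sum_univ_three`
(for `univ.erase i` use `Finset.prod_erase`-free evaluation: `fin_cases` / `decide`-proved set identities such as `univ.erase 0 = {1, 2}`), `(√2)⁻¹ * (√2)⁻¹ = 1 / 2`.
Pointwise statements: `det3_f`, `det4_f`, `orb_rf`, `Equiv.swap_apply_def`.  `near_prd`, `near_det4`: `ip g (orb 0) = 1 - ip (g - orb 0) (g - orb 0) / 2` (`sub_sq`, `ip_orb`, `ip_le_hn`).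
-/

open MeasureTheory Filter Topology Set
open scoped ContDiff

set_option linter.unusedSectionVars false

noncomputable section

namespace Vale.Agent.P363

theorem det3_f (a b : S e3) (X : Cfg 3) : (det3 a b).f X =
    (√2)⁻¹ * (a.f (X 0) * (a.f (X 1) * b.f (X 2) - b.f (X 1) * a.f (X 2))) := by
  simp only [det3, S.smul_f, S.sub_f, prd_f, Fin.prod_univ_three, Matrix.cons_val_zero,
    Matrix.cons_val_one, Matrix.cons_val]
  ring

theorem det3_anti (a b : S e3) : Anti 1 2 (det3 a b).f := by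
  refine Eventually.of_forall fun X => ?_
  have e0 : Equiv.swap (1 : Fin 3) 2 0 = 0 := by decide
  rw [det3_f, det3_f]
  simp only [Function.comp_apply, e0, Equiv.swap_apply_left, Equiv.swap_apply_right]
  ring

theorem sqrt_Det : (√2 : ℝ)⁻¹ ^ 2 = 1 / 2 := by
  rw [inv_pow, Real.sq_sqrt (by norm_num)]
  norm_num

theorem erase_Det : (Finset.univ : Finset (Fin 3)).erase 0 = {1, 2} ∧
    (Finset.univ : Finset (Fin 3)).erase 1 = {0, 2} ∧
    (Finset.univ : Finset (Fin 3)).erase 2 = {0, 1} := by decide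

theorem qf3_Det {v : E3 → ℝ} (hv : FB e3 v) (φ χ : Fin 3 → S e3) :
    qf (fun X => ∑ i, v (X i)) (prd φ) (prd χ) =
      qf v (φ 0) (χ 0) * (ip (φ 1) (χ 1) * ip (φ 2) (χ 2)) +
      qf v (φ 1) (χ 1) * (ip (φ 0) (χ 0) * ip (φ 2) (χ 2)) +
      qf v (φ 2) (χ 2) * (ip (φ 0) (χ 0) * ip (φ 1) (χ 1)) := by
  rw [qf_prd hv, Fin.sum_univ_three, erase_Det.1, erase_Det.2.1, erase_Det.2.2,
    Finset.prod_pair (by decide), Finset.prod_pair (by decide), Finset.prod_pair (by decide)]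

theorem ip_det3 {a b : S e3} (ha : ip a a = 1) (hb : ip b b = 1) (hab : ip a b = 0) :
    ip (det3 a b) (det3 a b) = 1 := by
  have hba : ip b a = 0 := by rw [bil_ip.symm, hab]
  rw [det3, bil_ip.smul_sq, bil_ip.sub_sq, sqrt_Det]
  simp only [ip_prd, Fin.prod_univ_three, Matrix.cons_val_zero, Matrix.cons_val_one,
    Matrix.cons_val, ha, hb, hab, hba]
  norm_num

theorem qf_det3 {v : E3 → ℝ} (hv : FB e3 v) {a b : S e3} (ha : ip a a = 1) (hb : ip b b = 1)
    (hab : ip a b = 0) :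
    qf (fun X => ∑ i, v (X i)) (det3 a b) (det3 a b) = 2 * qf v a a + qf v b b := by
  have hba : ip b a = 0 := by rw [bil_ip.symm, hab]
  have hB := (hv.slots (n := 3)).bil_qf
  rw [det3, hB.smul_sq, hB.sub_sq, sqrt_Det]
  simp only [qf3_Det hv, Matrix.cons_val_zero, Matrix.cons_val_one, Matrix.cons_val, ha, hb, hab,
    hba]
  ring

theorem det4_sw (a b : S e3) (X : Cfg 4) :
    (det4 a b).f (X ∘ (Equiv.swap 0 2 * Equiv.swap 1 3 : Equiv.Perm (Fin 4))) = (det4 a b).f X := by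
  have e0 : (Equiv.swap 0 2 * Equiv.swap 1 3 : Equiv.Perm (Fin 4)) 0 = 2 := by decide
  have e1 : (Equiv.swap 0 2 * Equiv.swap 1 3 : Equiv.Perm (Fin 4)) 1 = 3 := by decide
  have e2 : (Equiv.swap 0 2 * Equiv.swap 1 3 : Equiv.Perm (Fin 4)) 2 = 0 := by decide
  have e3 : (Equiv.swap 0 2 * Equiv.swap 1 3 : Equiv.Perm (Fin 4)) 3 = 1 := by decide
  rw [det4_f, det4_f]
  simp only [Function.comp_apply, e0, e1, e2, e3]
  ring

theorem det4_rf {g : S e3} (hg : ∀ k x, g.f (rf k x) = g.f x) (k : Fin 3) (X : Cfg 4) :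
    (det4 g (orb 4)).f (fun i => rf k (X i)) = (det4 g (orb 4)).f X := by
  rw [det4_f, det4_f]
  simp only [hg, orb_rf]
  split_ifs <;> ring

theorem det3_rf {g : S e3} (hg : ∀ k x, g.f (rf k x) = g.f x) (X : Cfg 3) :
    (det3 g (orb 4)).f (fun i => rf 2 (X i)) = -(det3 g (orb 4)).f X := by
  have e : (4 : Fin 5) = (2 : Fin 3).addNat 2 := by decide
  rw [det3_f, det3_f]
  simp only [hg, orb_rf, if_pos e]
  ring

theorem ip4_Det (φ : Fin 4 → S e3) (a b : S e3) : ip (prd φ) (det4 a b) =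
    1 / 2 * ((ip (φ 0) a * ip (φ 1) b - ip (φ 0) b * ip (φ 1) a) *
      (ip (φ 2) a * ip (φ 3) b - ip (φ 2) b * ip (φ 3) a)) := by
  rw [det4, bil_ip.smul_right, bil_ip.add_right, bil_ip.sub_right, bil_ip.sub_right]
  simp only [ip_prd, Fin.prod_univ_four, Matrix.cons_val_zero, Matrix.cons_val_one,
    Matrix.cons_val]
  ring

theorem ip_prd_det4 {a b : S e3} (ha : ip a a = 1) (hb : ip b b = 1) (hab : ip a b = 0) :
    ip (prd ![a, b, a, b]) (det4 a b) = 1 / 2 := by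
  have hba : ip b a = 0 := by rw [bil_ip.symm, hab]
  rw [ip4_Det]
  simp only [Matrix.cons_val_zero, Matrix.cons_val_one, Matrix.cons_val, ha, hb, hab, hba]
  norm_num

theorem ip_tens_det {a b : S e3} (ha : ip a a = 1) (hb : ip b b = 1) (hab : ip a b = 0) :
    ip (tens 0 b (det3 a b)) (det4 a b) = -(√2)⁻¹ := by
  have hba : ip b a = 0 := by rw [bil_ip.symm, hab]
  have e : (tens 0 b (det3 a b)).f =ᵐ[volume]
      ((√2 : ℝ)⁻¹ • (prd ![b, a, a, b] - prd ![b, a, b, a])).f := by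
    refine Eventually.of_forall fun X => ?_
    have e0 : Fin.removeNth 0 X 0 = X 1 := rfl
    have e1 : Fin.removeNth 0 X 1 = X 2 := rfl
    have e2 : Fin.removeNth 0 X 2 = X 3 := rfl
    rw [tens_f, det3_f, e0, e1, e2]
    simp only [S.smul_f, S.sub_f, prd_f, Fin.prod_univ_four, Matrix.cons_val_zero,
      Matrix.cons_val_one, Matrix.cons_val]
    ring
  rw [ip_congr e, bil_ip.smul, bil_ip.sub_left, ip4_Det, ip4_Det]
  simp only [Matrix.cons_val_zero, Matrix.cons_val_one, Matrix.cons_val, ha, hb, hab, hba]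
  ring

theorem near_Det {g : S e3} {θ : ℝ} (hn1 : ip g g = 1) (h : hn (g - orb 0) ≤ θ) :
    1 - ip g (orb 0) ^ 2 ≤ θ := by
  have h1 := (ip_le_hn (g - orb 0)).trans h
  have h2 := ip_nonneg (g - orb 0)
  rw [bil_ip.sub_sq, hn1, ip_orb, if_pos rfl] at h1 h2
  nlinarith [sq_nonneg (1 - ip g (orb 0))]

theorem near_prd {g : S e3} {θ : ℝ} (hn1 : ip g g = 1) (h : hn (g - orb 0) ≤ θ) :
    ip (prd ![orb 0, orb 4, orb 0, orb 4] - prd ![g, orb 4, g, orb 4])
      (prd ![orb 0, orb 4, orb 0, orb 4] - prd ![g, orb 4, g, orb 4]) ≤ 2 * θ := by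
  have h1 := near_Det hn1 h
  have h0 : ip (orb 0) (orb 0) = 1 := by rw [ip_orb, if_pos rfl]
  have h4 : ip (orb 4) (orb 4) = 1 := by rw [ip_orb, if_pos rfl]
  rw [bil_ip.sub_sq]
  simp only [ip_prd, Fin.prod_univ_four, Matrix.cons_val_zero, Matrix.cons_val_one,
    Matrix.cons_val, h0, h4, hn1, bil_ip.symm (orb 0) g]
  nlinarith

theorem near_det4 {g : S e3} {θ : ℝ} (hn1 : ip g g = 1) (ho : ip g (orb 4) = 0)
    (h : hn (g - orb 0) ≤ θ) :
    ip (det4 g (orb 4) - det4 (orb 0) (orb 4)) (det4 g (orb 4) - det4 (orb 0) (orb 4)) ≤ 2 * θ := by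
  have h1 := near_Det hn1 h
  have h0 : ip (orb 0) (orb 0) = 1 := by rw [ip_orb, if_pos rfl]
  have h4 : ip (orb 4) (orb 4) = 1 := by rw [ip_orb, if_pos rfl]
  have h04 : ip (orb 0) (orb 4) = 0 := by rw [ip_orb, if_neg (by decide)]
  have h40 : ip (orb 4) (orb 0) = 0 := by rw [ip_orb, if_neg (by decide)]
  have h2 : ip (det4 g (orb 4)) (det4 (orb 0) (orb 4)) = ip g (orb 0) ^ 2 := by
    rw [det4, bil_ip.smul, bil_ip.add, bil_ip.sub_left, bil_ip.sub_left]
    simp only [ip4_Det, Matrix.cons_val_zero, Matrix.cons_val_one, Matrix.cons_val, h4, h40, ho]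
    ring
  rw [bil_ip.sub_sq, ip_det4 hn1 h4 ho, ip_det4 h0 h4 h04, h2]
  linarith

end Vale.Agent.P363
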