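import Vale.Agent.P363.M.Res
import Vale.Agent.P363.M.Det

/-!
# P363 M/Dys

The Dyson orbital is close to a multiple of `orb 4`.
-/

open MeasureTheory Filter Topology Set
open scoped ContDiff

set_option linter.unusedSectionVars false

noncomputable section

namespace Vale.Agent.P363

theorem par_Dys {ψ : S (eN 4)} {Φ : S (eN 3)}
    (ev : ∀ᵐ X : Cfg 4, ψ.f (fun i => rf 2 (X i)) = ψ.f X)
    (od : ∀ᵐ Y : Cfg 3, Φ.f (fun i => rf 2 (Y i)) = -Φ.f Y) {j : Fin 5} (hj : j ≠ 4) :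
    ip (orb j) ((slotFib 0 ψ).pr Φ.mem) = 0 := by
  rw [← ip_tens]
  obtain ⟨T, hT⟩ := exists_sym_rfN 4 2
  refine hT.integral_odd ?_
  filter_upwards [ev, ae_rest (0 : Fin 4) od] with X h1 h2
  have h3 : Φ.f (Fin.removeNth 0 fun i => rf 2 (X i)) = -Φ.f (Fin.removeNth 0 X) := h2
  have h4 : j ≠ (2 : Fin 3).addNat 2 := hj
  rw [tens_f, tens_f, h1, h3, orb_rf, if_neg h4]
  ring

theorem sq_Dys {φ : S e3} (hφ : ip φ φ = 1) (Φ : S (eN 3)) (a : S (eN 4)) :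
    ip (tens 0 φ Φ) a ^ 2 ≤ ip a a * ip Φ Φ := by
  refine (ip_tens_sq_le 0 φ Φ a).trans (mul_le_mul_of_nonneg_right ?_ (ip_nonneg Φ))
  have h := (red_memLp 0 φ.mem a.mem).2
  rwa [← ip_self, ← ip_self, hφ, one_mul] at h

theorem dys_main {g : S e3} {ψ : S (eN 4)} {Φ : S (eN 3)} (hg : ip g g = 1)
    (ho : ip g (orb 4) = 0) (hψ : ip ψ ψ = 1) (hΦ : ip Φ Φ = 1)
    (ev : ∀ᵐ X : Cfg 4, ψ.f (fun i => rf 2 (X i)) = ψ.f X)
    (od : ∀ᵐ Y : Cfg 3, Φ.f (fun i => rf 2 (Y i)) = -Φ.f Y)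
    (n4 : ip (ψ - det4 g (orb 4)) (ψ - det4 g (orb 4)) ≤ 1 / 100)
    (n3 : ip (Φ - det3 g (orb 4)) (Φ - det3 g (orb 4)) ≤ 1 / 100) :
    ∃ b : ℝ, 1 / 2 ≤ |b| ∧ hn ((slotFib 0 ψ).pr Φ.mem - b • orb 4) ≤ (slotFib 0 ψ).defect := by
  have hz : ip (orb 4) (orb 4) = 1 := by rw [ip_orb, if_pos rfl]
  refine ⟨ip (orb 4) ((slotFib 0 ψ).pr Φ.mem), ?_, ?_⟩
  · rw [← ip_tens]
    have e1 : ip (tens 0 (orb 4) Φ) ψ =
        ip (tens 0 (orb 4) (det3 g (orb 4)) + tens 0 (orb 4) (Φ - det3 g (orb 4))) ψ := by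
      refine ip_congr (Eventually.of_forall fun X => ?_) ψ
      simp only [S.add_f, tens_f, S.sub_f]
      ring
    have e2 : ip (tens 0 (orb 4) (det3 g (orb 4))) ψ =
        -(√2)⁻¹ + ip (tens 0 (orb 4) (det3 g (orb 4))) (ψ - det4 g (orb 4)) := by
      rw [bil_ip.sub_right, ip_tens_det hg hz ho]
      ring
    have b1 := sq_Dys hz (det3 g (orb 4)) (ψ - det4 g (orb 4))
    have b2 := sq_Dys hz (Φ - det3 g (orb 4)) ψ
    rw [ip_det3 hg hz ho, mul_one] at b1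
    rw [hψ, one_mul] at b2
    have c1 := abs_le_of_sq_le_sq' (b1.trans (n4.trans_eq (by norm_num : (1 / 100 : ℝ) = (1 / 10) ^ 2)))
      (by norm_num)
    have c2 := abs_le_of_sq_le_sq' (b2.trans (n3.trans_eq (by norm_num : (1 / 100 : ℝ) = (1 / 10) ^ 2)))
      (by norm_num)
    have h2 : (7 / 10 : ℝ) ≤ (√2)⁻¹ := by
      rw [← Real.sqrt_inv]
      exact Real.le_sqrt_of_sq_le (by norm_num)
    rw [e1, bil_ip.add, e2, le_abs]
    right
    linarith [c1.2, c2.2]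
  · have e : (slotFib 0 ψ).pr Φ.mem - ip (orb 4) ((slotFib 0 ψ).pr Φ.mem) • orb 4 =
        rem ((slotFib 0 ψ).pr Φ.mem) := by
      rw [rem, Fin.sum_univ_five, par_Dys ev od (j := 0) (by decide),
        par_Dys ev od (j := 1) (by decide), par_Dys ev od (j := 2) (by decide),
        par_Dys ev od (j := 3) (by decide)]
      simp
    have h := (slotFib 0 ψ).hn_rem_pr Φ.mem
    rwa [← ip_self, hΦ, mul_one, ← e] at h

end Vale.Agent.P363
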