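import Vale.Agent.P363.M.Det

/-!
# P363 M/Low  (TASK; helper names end in `_Low`)

Lower bounds.  `e1 = lvG`, `ez = lvZ`, `es = qf (VR R) z z + c R²`; `sm, eg, ez` give `e1 + c R² ≤ ez ≤ es - c R²`.  `OB.lift`: `lift_slot` with `κ = Fin 2`, `φ = ![g, orb 4]`,
`c = ![e1 - es, ez - es]`, `c₀ = es`, and `pot Wee b b ≥ 0`.  The rest is arithmetic with `pauli` (for `s = {0,1}`, `{2,3}`, `{0,1,2}`, `{1,2}`; `Anti.symm`, `Anti.trans`, `ip_self`),
`occ_sum_le` (`occ i g + occ i z ≤ ip b b`) and `occ_nonneg`.  `low3`: slot 0 contributes at least `e1 ip + (ez - e1) (ip - occ 0 g)`.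
`trial`: `qf_UN`, `qf_det4`, `qf_det3`; `kin ≤ 32` from `kin_le_UN R (le_refl 0)` (the one-body energies are negative), `fb_Wee.abs_pot_le`.
-/

open MeasureTheory Filter Topology Set
open scoped ContDiff

set_option linter.unusedSectionVars false

noncomputable section

namespace Vale.Agent.P363

theorem qf_UN {n : ℕ} (R lam : ℝ) (a b : S (eN n)) :
    qf (UN R lam) a b = qf (fun X => ∑ i, VR R (X i)) a b + lam * pot Wee a b := by
  have h := pot_add (fb_VR R).slots (fb_Wee.const_mul lam) a b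
  rw [pot_const_mul] at h
  rw [qf, qf, add_assoc, ← h]
  rfl
theorem pot_Wee_nonneg {n : ℕ} (a : S (eN n)) : 0 ≤ pot Wee a a :=
  integral_nonneg fun X => mul_nonneg (Wee_nonneg X) (mul_self_nonneg _)

variable {R c C ε lam : ℝ} {g : S e3}

theorem ipz_Low : ip (orb 4) (orb 4) = 1 := by rw [ip_orb, if_pos rfl]

theorem OB.nums_Low (h : OB R c C ε g) : 0 ≤ c * R ^ 2 ∧ 0 ≤ ε * R ^ 2 ∧
    qf (VR R) g g + c * R ^ 2 ≤ qf (VR R) (orb 4) (orb 4) ∧ qf (VR R) g g ≤ 0 ∧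
    qf (VR R) (orb 4) (orb 4) ≤ 0 := by
  have h1 : 0 ≤ c * R ^ 2 := mul_nonneg h.c0.le (sq_nonneg R)
  have h2 : 0 ≤ ε * R ^ 2 := mul_nonneg h.ε0 (sq_nonneg R)
  have h3 : 0 ≤ C * R ^ 2 := mul_nonneg h.C0 (sq_nonneg R)
  have h4 := h.sm
  have h5 := abs_le.1 h.eg
  have h6 := abs_le.1 h.ez
  refine ⟨h1, h2, ?_, ?_, ?_⟩ <;> nlinarith

theorem OB.slot_Low (h : OB R c C ε g) {n : ℕ} (i : Fin (n + 1)) (b : S (eN (n + 1))) :
    occ i g.f b.f + occ i (orb 4).f b.f ≤ ip b b := by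
  have := occ_sum_le (φ := ![g, orb 4]) (fun j l => by
    fin_cases j <;> fin_cases l <;> simp [h.n, h.o, ipz_Low, bil_ip.symm (orb 4) g]) i b
  simpa [Fin.sum_univ_two] using this

theorem pauli_Low {n : ℕ} (s : Finset (Fin (n + 1))) {b : S (eN (n + 1))}
    (h : ∀ i ∈ s, ∀ j ∈ s, i ≠ j → Anti i j b.f) {φ : S e3} (hφ : ip φ φ = 1) :
    ∑ i ∈ s, occ i φ.f b.f ≤ ip b b := by
  have := pauli s b.mem h φ.mem
  rwa [← ip_self, ← ip_self, hφ, one_mul] at this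

theorem pauli2_Low {n : ℕ} {i j : Fin (n + 1)} (hij : i ≠ j) {b : S (eN (n + 1))}
    (h : Anti i j b.f) {φ : S e3} (hφ : ip φ φ = 1) :
    occ i φ.f b.f + occ j φ.f b.f ≤ ip b b := by
  have := pauli_Low {i, j} (b := b) (fun k hk l hl hkl => by
    simp only [Finset.mem_insert, Finset.mem_singleton] at hk hl
    rcases hk with rfl | rfl <;> rcases hl with rfl | rfl
    exacts [absurd rfl hkl, h, h.symm, absurd rfl hkl]) hφ
  rwa [Finset.sum_pair hij] at this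

theorem pauli3_Low {b : S (eN 4)} (h01 : Anti 0 1 b.f) (h12 : Anti 1 2 b.f) {φ : S e3}
    (hφ : ip φ φ = 1) : occ 0 φ.f b.f + occ 1 φ.f b.f + occ 2 φ.f b.f ≤ ip b b := by
  have h02 : Anti 0 2 b.f := h01.trans h12 (by decide) (by decide) (by decide)
  have := pauli_Low {0, 1, 2} (b := b) (fun k hk l hl hkl => by
    simp only [Finset.mem_insert, Finset.mem_singleton] at hk hl
    rcases hk with rfl | rfl | rfl <;> rcases hl with rfl | rfl | rfl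
    exacts [absurd rfl hkl, h01, h02, h01.symm, absurd rfl hkl, h12, h02.symm, h12.symm,
      absurd rfl hkl]) hφ
  rwa [Finset.sum_insert (by decide), Finset.sum_pair (by decide), ← add_assoc] at this

theorem OB.lift (h : OB R c C ε g) (hl : 0 ≤ lam) {n : ℕ} (b : S (eN (n + 1))) :
    (n + 1) * (qf (VR R) (orb 4) (orb 4) + c * R ^ 2) * ip b b -
      (qf (VR R) (orb 4) (orb 4) + c * R ^ 2 - lvG R ε g) * ∑ i, occ i g.f b.f -
      (c + ε) * R ^ 2 * ∑ i, occ i (orb 4).f b.f ≤ qf (UN R lam) b b := by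
  have h1 := lift_slot (fb_VR R) ![g, orb 4]
    ![lvG R ε g - (qf (VR R) (orb 4) (orb 4) + c * R ^ 2), -((c + ε) * R ^ 2)]
    (qf (VR R) (orb 4) (orb 4) + c * R ^ 2) (fun a => by
      have := h.low a
      simp only [Fin.sum_univ_two, Matrix.cons_val_zero, Matrix.cons_val_one, lvZ] at this ⊢
      linarith) b
  simp only [Fin.sum_univ_two, Matrix.cons_val_zero, Matrix.cons_val_one] at h1
  have h2 := mul_nonneg hl (pot_Wee_nonneg b)
  rw [qf_UN]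
  linarith
theorem OB.low4 (h : OB R c C ε g) (hl : 0 ≤ lam) {b : S (eN 4)} (h01 : Anti 0 1 b.f)
    (h23 : Anti 2 3 b.f) : ∑ i, occ i g.f b.f ≤ 2 * ip b b ∧ ∑ i, occ i (orb 4).f b.f ≤ 2 * ip b b ∧
    (2 * lvG R ε g + 2 * lvZ R ε) * ip b b +
      c * R ^ 2 * (4 * ip b b - ∑ i, occ i g.f b.f - ∑ i, occ i (orb 4).f b.f) ≤
      qf (UN R lam) b b := by
  have hG : ∑ i, occ i g.f b.f ≤ 2 * ip b b := by
    have a1 := pauli2_Low (by decide) h01 h.n
    have a2 := pauli2_Low (by decide) h23 h.n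
    rw [Fin.sum_univ_four]
    linarith
  have hZ : ∑ i, occ i (orb 4).f b.f ≤ 2 * ip b b := by
    have a1 := pauli2_Low (by decide) h01 ipz_Low
    have a2 := pauli2_Low (by decide) h23 ipz_Low
    rw [Fin.sum_univ_four]
    linarith
  refine ⟨hG, hZ, le_trans ?_ (h.lift hl b)⟩
  obtain ⟨n1, n2, n3, -, -⟩ := h.nums_Low
  have p1 := mul_nonneg (show 0 ≤ qf (VR R) (orb 4) (orb 4) - qf (VR R) g g + ε * R ^ 2 by linarith)
    (sub_nonneg.2 hG)
  have p2 := mul_nonneg n2 (sub_nonneg.2 hZ)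
  simp only [lvG, lvZ]
  push_cast
  linarith
theorem OB.low31 (h : OB R c C ε g) (hl : 0 ≤ lam) {b : S (eN 4)} (h01 : Anti 0 1 b.f)
    (h12 : Anti 1 2 b.f) :
    (2 * lvG R ε g + 2 * lvZ R ε + c * R ^ 2) * ip b b ≤ qf (UN R lam) b b := by
  refine le_trans ?_ (h.lift hl b)
  obtain ⟨n1, n2, n3, -, -⟩ := h.nums_Low
  have a1 := pauli3_Low h01 h12 h.n
  have a2 := pauli3_Low h01 h12 ipz_Low
  have a3 := h.slot_Low 3 b
  have a4 := occ_nonneg 3 (orb 4).f b.f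
  have q1 : 0 ≤ qf (VR R) (orb 4) (orb 4) - qf (VR R) g g + c * R ^ 2 + ε * R ^ 2 := by linarith
  have p1 := mul_nonneg q1 (sub_nonneg.2 a1)
  have p2 := mul_nonneg (add_nonneg n1 n2) (sub_nonneg.2 a2)
  have p3 := mul_nonneg q1 (sub_nonneg.2 a3)
  have p4 := mul_nonneg (show 0 ≤ qf (VR R) (orb 4) (orb 4) - qf (VR R) g g by linarith) a4
  have p5 := mul_nonneg n2 (ip_nonneg b)
  rw [Fin.sum_univ_four, Fin.sum_univ_four]
  simp only [lvG, lvZ]
  push_cast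
  linarith
theorem OB.low3 (h : OB R c C ε g) (hl : 0 ≤ lam) {b : S (eN 3)} (h12 : Anti 1 2 b.f) :
    (2 * lvG R ε g + lvZ R ε) * ip b b + c * R ^ 2 *
      (3 * ip b b - ∑ i, occ i g.f b.f - occ 1 (orb 4).f b.f - occ 2 (orb 4).f b.f) ≤
      qf (UN R lam) b b := by
  refine le_trans ?_ (h.lift hl b)
  obtain ⟨n1, n2, n3, -, -⟩ := h.nums_Low
  have a1 := pauli2_Low (by decide) h12 h.n
  have a2 := pauli2_Low (by decide) h12 ipz_Low
  have a3 := h.slot_Low 0 b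
  have a4 := occ_nonneg 0 (orb 4).f b.f
  have q1 : 0 ≤ qf (VR R) (orb 4) (orb 4) - qf (VR R) g g + ε * R ^ 2 := by linarith
  have p1 := mul_nonneg q1 (sub_nonneg.2 a1)
  have p2 := mul_nonneg n2 (sub_nonneg.2 a2)
  have p3 := mul_nonneg q1 (sub_nonneg.2 a3)
  have p4 := mul_nonneg (sub_nonneg.2 n3) a4
  rw [Fin.sum_univ_three, Fin.sum_univ_three]
  simp only [lvG, lvZ]
  push_cast
  linarith
theorem OB.low2 (h : OB R c C ε g) (hl : 0 ≤ lam) (b : S (eN 2)) :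
    2 * lvG R ε g * ip b b ≤ qf (UN R lam) b b := by
  refine le_trans ?_ (h.lift hl b)
  obtain ⟨n1, n2, n3, -, -⟩ := h.nums_Low
  have a1 := h.slot_Low 0 b
  have a2 := h.slot_Low 1 b
  have a3 := occ_nonneg 0 (orb 4).f b.f
  have a4 := occ_nonneg 1 (orb 4).f b.f
  have q1 : 0 ≤ qf (VR R) (orb 4) (orb 4) - qf (VR R) g g + c * R ^ 2 + ε * R ^ 2 := by linarith
  have q2 : 0 ≤ qf (VR R) (orb 4) (orb 4) - qf (VR R) g g := by linarith
  have p1 := mul_nonneg q1 (sub_nonneg.2 a1)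
  have p2 := mul_nonneg q1 (sub_nonneg.2 a2)
  have p3 := mul_nonneg q2 a3
  have p4 := mul_nonneg q2 a4
  rw [Fin.sum_univ_two, Fin.sum_univ_two]
  simp only [lvG]
  push_cast
  linarith

theorem pot_Low (n : ℕ) : ∃ K : ℝ, 0 ≤ K ∧ ∀ (R : ℝ) (d : S (eN n)), ip d d = 1 →
    qf (fun X => ∑ i, VR R (X i)) d d ≤ 0 → pot Wee d d ≤ K := by
  obtain ⟨K, h0, hK⟩ := (fb_Wee (n := n)).abs_pot_le
  refine ⟨K * (1 + 8 * n), by positivity, fun R d h1 h2 => ?_⟩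
  have h3 := kin_le_UN R (le_refl 0) d
  rw [qf_UN, zero_mul, add_zero, h1] at h3
  have h4 := (le_abs_self _).trans (hK d d)
  rw [mul_assoc, Real.mul_self_sqrt (hn_nonneg d), hn, h1] at h4
  exact h4.trans (mul_le_mul_of_nonneg_left (by linarith) h0)

theorem trial : ∃ C₀ : ℝ, 0 < C₀ ∧ ∀ (R c C ε lam : ℝ) (g : S e3), OB R c C ε g → 0 ≤ lam →
    qf (UN R lam) (det4 g (orb 4)) (det4 g (orb 4)) ≤
      2 * lvG R ε g + 2 * lvZ R ε + 4 * ε * R ^ 2 + lam * C₀ ∧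
    qf (UN R lam) (det3 g (orb 4)) (det3 g (orb 4)) ≤
      2 * lvG R ε g + lvZ R ε + 4 * ε * R ^ 2 + lam * C₀ := by
  obtain ⟨K4, k4, h4⟩ := pot_Low 4
  obtain ⟨K3, k3, h3⟩ := pot_Low 3
  refine ⟨K4 + K3 + 1, by positivity, fun R c C ε lam g h hl => ?_⟩
  obtain ⟨-, n2, -, n4, n5⟩ := h.nums_Low
  have e4 := qf_det4 (fb_VR R) h.n ipz_Low h.o
  have e3 := qf_det3 (fb_VR R) h.n ipz_Low h.o
  have p4 := mul_le_mul_of_nonneg_left ((h4 R _ (ip_det4 h.n ipz_Low h.o) (by linarith)).trans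
    (show K4 ≤ K4 + K3 + 1 by linarith)) hl
  have p3 := mul_le_mul_of_nonneg_left ((h3 R _ (ip_det3 h.n ipz_Low h.o) (by linarith)).trans
    (show K3 ≤ K4 + K3 + 1 by linarith)) hl
  rw [qf_UN, qf_UN, e4, e3]
  simp only [lvG, lvZ]
  constructor <;> linarith

end Vale.Agent.P363
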