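import Vale.Agent.P363.M.Ovl
import Vale.Agent.P363.M.Low

/-!
# P363 M/Occ  (TASK; helper names end in `_Occ`)

Test the eigenvalue equation with `thet = prd φ`, `φ = ![o1, o0, o1, o0]`, `m = ip thet ψ`: `E m = qf UN thet ψ = ∑ i, qf (VR R) (φ i) (d i) + lam pot Wee thet ψ` (`qf_UN`, `qf_prd_left`),
`d i = (slotFib i ψ).pr (prd fun j => φ (i.succAbove j)).mem`.  `ip_pr_prd`: `ip_tens`, `prd_eq_tens` for `Function.update φ i χ`.  `qf (VR R) = qf V0 + pot (dV R)`, `qf_orb`; the levels add up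
to `-5/4`.  `slot_Occ`-like step for `a ∈ {0, 1}`: `d = rem d + ∑ b, ip (orb b) d • orb b`, `crystal` kills `b ≥ 2`, bounds the diagonal term by `C R² |m|` and the remainder by
`√(C R³ hn (rem d))`, `hn (rem d) ≤ δ` (`Fib.hn_rem_pr`, `ip_prd`); the other `b ∈ {0, 1}` has `ip (orb b) d = 0` by `ip_prd_eq`.  `thet_occ`: `ip_tens_sq_le`, `occ_nonneg`.
-/

open MeasureTheory Filter Topology Set
open scoped ContDiff

set_option linter.unusedSectionVars false

noncomputable section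

namespace Vale.Agent.P363

theorem ip_pr_prd {n : ℕ} (i : Fin (n + 1)) (φ : Fin (n + 1) → S e3) (χ : S e3)
    (a : S (eN (n + 1))) : ip χ ((slotFib i a).pr (prd fun j => φ (i.succAbove j)).mem) =
      ip (prd (Function.update φ i χ)) a := by
  rw [← ip_tens]
  refine ip_congr (ae_of_all _ fun X => ?_) a
  simp only [prd_eq_tens i (Function.update φ i χ) X, Function.update_self,
    Function.update_of_ne (Fin.succAbove_ne i _)]

theorem norm_Occ {n : ℕ} (s : Fin n → Fin 5) :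
    ip (prd fun j => orb (s j)) (prd fun j => orb (s j)) = 1 := by
  simp [ip_prd, ip_orb]

theorem thet_Occ : thet = prd fun i => orb ((![1, 0, 1, 0] : Fin 4 → Fin 5) i) := by
  rw [thet]
  congr 1
  funext i
  fin_cases i <;> rfl

theorem thet_occ (ψ : S (eN 4)) : ip thet ψ ^ 2 ≤ ∑ i, occ i (orb 1).f ψ.f := by
  rw [thet_Occ, ip_congr (ae_of_all _ (prd_eq_tens 0 _))]
  refine (ip_tens_sq_le _ _ _ _).trans ?_
  rw [norm_Occ, mul_one]
  exact Finset.single_le_sum (f := fun i => occ i (orb 1).f ψ.f) (fun i _ => occ_nonneg _ _ _)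
    (Finset.mem_univ 0)

theorem slot_Occ {C R δ : ℝ} (hC : 0 < C) (hR : 0 < R) {a : Fin 5} {d : S e3}
    (h1 : |pot (dV R) (orb a) (orb a)| ≤ C * R ^ 2)
    (h2 : pot (dV R) (orb a) (rem d) ^ 2 ≤ C * R ^ 3 * hn (rem d)) (h3 : hn (rem d) ≤ δ)
    (h4 : ∀ b, b ≠ a → ip (orb b) d * pot (dV R) (orb a) (orb b) = 0) :
    -pot (dV R) (orb a) d ≤ C * R ^ 2 * |ip (orb a) d| + √C * √(R ^ 3 * δ) := by
  have hB := (fb_dV R).bil_pot
  have e : pot (dV R) (orb a) (rem d) =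
      pot (dV R) (orb a) d - ip (orb a) d * pot (dV R) (orb a) (orb a) := by
    rw [rem, hB.sub_right, hB.sum_right]
    simp only [hB.smul_right]
    rw [Finset.sum_eq_single a (fun b _ hb => h4 b hb) fun h => absurd (Finset.mem_univ a) h]
  have h5 : |pot (dV R) (orb a) (rem d)| ≤ √C * √(R ^ 3 * δ) := by
    rw [← Real.sqrt_mul hC.le, ← mul_assoc]
    exact Real.abs_le_sqrt (h2.trans (mul_le_mul_of_nonneg_left h3 (by positivity)))
  have h6 := mul_le_mul_of_nonneg_left h1 (abs_nonneg (ip (orb a) d))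
  rw [← abs_mul] at h6
  linarith [(abs_le.1 h5).1, (abs_le.1 h6).1]

theorem pair_Occ : ∀ (i : Fin 4) (b : Fin 5), b ≠ (![1, 0, 1, 0] : Fin 4 → Fin 5) i → 2 ≤ b ∨
    ∃ j, j ≠ i ∧ b = (![1, 0, 1, 0] : Fin 4 → Fin 5) j ∧
      ((i = 0 ∧ j = 1) ∨ (i = 1 ∧ j = 0) ∨ (i = 2 ∧ j = 3) ∨ (i = 3 ∧ j = 2)) := by decide

theorem thet_eq : ∃ C₅ R₂ : ℝ, 0 < C₅ ∧ 0 < R₂ ∧ ∀ (R lam E δ : ℝ) (ψ : S (eN 4)), 0 < R → R ≤ R₂ →
    (∀ b, qf (UN R lam) ψ b = E * ip ψ b) → Anti 0 1 ψ.f → Anti 2 3 ψ.f →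
    (∀ i, (slotFib i ψ).defect ≤ δ) →
    lam * pot Wee thet ψ ≤ (|E + 5 / 4| + C₅ * R ^ 2) * |ip thet ψ| + C₅ * √(R ^ 3 * δ) := by
  obtain ⟨c, C, R₀, -, hC, hR₀, h⟩ := crystal
  refine ⟨4 * (C + √C), R₀, by positivity, hR₀, fun R lam E δ ψ hR hR' he h01 h23 hd => ?_⟩
  obtain ⟨c1, -, c3, c4, -⟩ := h R hR hR'
  have h1 := he thet
  rw [(fb_UN R lam).bil_qf.symm, bil_ip.symm, qf_UN] at h1
  have hp := pair_Occ
  have hl : ∑ i, lev ((![1, 0, 1, 0] : Fin 4 → Fin 5) i) = -(5 / 4) := by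
    simp [Fin.sum_univ_four, lev]
    norm_num
  have ht := thet_Occ
  generalize (![1, 0, 1, 0] : Fin 4 → Fin 5) = s at hp hl ht
  have h2 := qf_prd_left (fb_VR R) (fun i => orb (s i)) ψ
  rw [← ht] at h2
  have h3 : ∀ i, lev (s i) * ip thet ψ - (C * R ^ 2 * |ip thet ψ| + √C * √(R ^ 3 * δ)) ≤
      qf (VR R) (orb (s i)) ((slotFib i ψ).pr (prd fun j => orb (s (i.succAbove j))).mem) := by
    intro i
    have e1 := fun b => ip_pr_prd i (fun i => orb (s i)) (orb b) ψ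
    have e2 := e1 (s i)
    rw [Function.update_eq_self i fun i => orb (s i), ← ht] at e2
    have e3 := (slotFib i ψ).hn_rem_pr (prd fun j => orb (s (i.succAbove j))).mem
    rw [← ip_self, norm_Occ, mul_one] at e3
    have e4 := slot_Occ hC hR (c1 (s i) (s i)) (c4 _ _) (e3.trans (hd i)) fun b hb => by
      rcases hp i b hb with h2 | ⟨j, j1, j2, j3⟩
      · rw [c3 _ _ hb.symm (Or.inr h2), mul_zero]
      · rw [e1, ip_prd_eq (i := i) (j := j) _ (by
          rw [Function.update_self, Function.update_of_ne j1, j2]), zero_mul]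
        rcases j3 with ⟨rfl, rfl⟩ | ⟨rfl, rfl⟩ | ⟨rfl, rfl⟩ | ⟨rfl, rfl⟩
        exacts [h01, h01.symm, h23, h23.symm]
    have e5 := qf_orb (s i) ((slotFib i ψ).pr (prd fun j => orb (s (i.succAbove j))).mem)
    have e6 : pot (dV R) _ _ = _ := pot_sub (fb_VR R) fb_V0 (orb (s i))
      ((slotFib i ψ).pr (prd fun j => orb (s (i.succAbove j))).mem)
    rw [e2] at e4 e5
    rw [qf] at e5 ⊢
    linarith
  have h4 := Finset.sum_le_sum fun i (_ : i ∈ Finset.univ) => h3 i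
  rw [← h2, Finset.sum_sub_distrib, ← Finset.sum_mul, hl, Finset.sum_const, Finset.card_univ,
    Fintype.card_fin, nsmul_eq_mul] at h4
  have h5 := le_abs_self ((E + 5 / 4) * ip thet ψ)
  rw [abs_mul] at h5
  have h6 : 0 ≤ √C * R ^ 2 * |ip thet ψ| := by positivity
  have h7 : 0 ≤ C * √(R ^ 3 * δ) := by positivity
  push_cast at h4
  linarith

end Vale.Agent.P363
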