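import Vale.Agent.P363.M.Gr
import Vale.Agent.P363.M.Dfc
import Vale.Agent.P363.M.Dys
import Vale.Agent.P363.M.Cor
import Vale.Agent.P363.M.Coul
import Vale.Agent.P363.M.Occ

/-!
# P363 M/Main

Block M: assembly, see `notes/P363.md`.
-/

open MeasureTheory Filter Topology Set
open scoped ContDiff

set_option linter.unusedSectionVars false

noncomputable section

namespace Vale.Agent.P363

theorem lev_Main {R lam c C ε θ E₄ E₃ γ : ℝ} {g : S e3} {ψ : S (eN 4)} {Φ : S (eN 3)}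
    (h : OB R c C ε g) (hθ : θ ≤ 1) (h4 : G4 R lam c ε θ g ψ E₄) (h3 : G3 R lam c ε θ g Φ E₃ γ) :
    |E₄ + 5 / 4| ≤ (4 * C + c + 4 * ε) * R ^ 2 ∧ |E₃ - E₄ - 1 / 8| ≤ (4 * C + c + 4 * ε) * R ^ 2 ∧
      |E₃ + 9 / 8| ≤ (4 * C + c + 4 * ε) * R ^ 2 ∧
      -1 - (4 * C + c + 4 * ε) * R ^ 2 ≤ 2 * lvG R ε g := by
  have a1 := abs_le.1 h.eg
  have a2 := abs_le.1 h.ez
  have a3 := h4.lo
  have a4 := h4.hi
  have a5 := h3.lo
  have a6 := h3.hi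
  have b1 : 0 ≤ c * R ^ 2 := mul_nonneg h.c0.le (sq_nonneg R)
  have b2 : 0 ≤ C * R ^ 2 := mul_nonneg h.C0 (sq_nonneg R)
  have b3 : 0 ≤ ε * R ^ 2 := mul_nonneg h.ε0 (sq_nonneg R)
  have b4 := mul_le_of_le_one_left b1 hθ
  unfold lvG lvZ at *
  refine ⟨abs_le.2 ⟨?_, ?_⟩, abs_le.2 ⟨?_, ?_⟩, abs_le.2 ⟨?_, ?_⟩, ?_⟩ <;>
    linarith [a1.1, a1.2, a2.1, a2.2]

theorem occ_Main {K τ lam R B C₅ D p m x : ℝ} (hK : 0 < K) (hτ : 0 < τ) (hl : 0 < lam)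
    (hR : R ^ 2 = τ * lam) (hR0 : 0 ≤ R) (hB : 0 ≤ B) (hC : 0 < C₅) (hx : x ≤ B * R ^ 2)
    (h1 : K / 2 ≤ p) (h2 : lam * p ≤ (x + C₅ * R ^ 2) * |m| + C₅ * √(R ^ 3 * (D * R ^ 2)))
    (h3 : D * R ≤ (K / (4 * C₅ * τ)) ^ 2) : (K / (4 * τ * (B + C₅))) ^ 2 ≤ m ^ 2 := by
  have a1 : √(R ^ 3 * (D * R ^ 2)) ≤ R ^ 2 * (K / (4 * C₅ * τ)) := by
    refine Real.sqrt_le_iff.2 ⟨by positivity, ?_⟩
    rw [mul_pow, show R ^ 3 * (D * R ^ 2) = (R ^ 2) ^ 2 * (D * R) by ring]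
    exact mul_le_mul_of_nonneg_left h3 (by positivity)
  have a2 : C₅ * (R ^ 2 * (K / (4 * C₅ * τ))) = lam * (K / 4) := by
    rw [hR]; field_simp
  have a3 := mul_le_mul_of_nonneg_left a1 hC.le
  have a4 := mul_le_mul_of_nonneg_left h1 hl.le
  have a5 : (x + C₅ * R ^ 2) * |m| ≤ lam * (τ * (B + C₅) * |m|) :=
    (mul_le_mul_of_nonneg_right (add_le_add hx le_rfl) (abs_nonneg m)).trans
      (le_of_eq (by rw [hR]; ring))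
  have a6 : K / 4 ≤ τ * (B + C₅) * |m| := le_of_mul_le_mul_left (by linarith) hl
  rw [← sq_abs m]
  refine pow_le_pow_left₀ (by positivity) ?_ 2
  rw [div_le_iff₀ (by positivity)]
  linarith

theorem exact_main : ∃ c C τ : ℝ, 0 < c ∧ 0 < C ∧ 0 < τ ∧ ∀ η : ℝ, 0 < η → ∃ l₀ : ℝ, 0 < l₀ ∧
    ∀ lam : ℝ, 0 < lam → lam ≤ l₀ → ∃ (ψ : S (eN 4)) (Φ : S (eN 3)) (E₄ E₃ g : ℝ),
      Exact √(τ * lam) lam c C η ψ Φ E₄ E₃ g := by
  obtain ⟨c, C, hc, hC, h1⟩ := one_body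
  obtain ⟨C₀, hC₀, htr⟩ := trial
  obtain ⟨C₃, R₁, hC₃, hR₁, hdf⟩ := defects
  obtain ⟨C₄, R₃, hC₄, hR₃, hhy⟩ := hyd_le
  obtain ⟨C₆, hC₆, hco⟩ := core_main
  obtain ⟨K, W, hK, hW, hwe⟩ := wee_near
  obtain ⟨C₅, R₂, hC₅, hR₂, hth⟩ := thet_eq
  obtain ⟨θ, hθ, θ1, θ2⟩ : ∃ θ : ℝ, 0 < θ ∧ θ ≤ 1 / 200 ∧ θ ≤ (K / (2 * W)) ^ 2 :=
    ⟨min _ _, lt_min (by norm_num) (by positivity), min_le_left _ _, min_le_right _ _⟩
  obtain ⟨ε, hε, ε1, ε2⟩ : ∃ ε : ℝ, 0 < ε ∧ ε ≤ θ ∧ ε ≤ c * θ / 8 :=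
    ⟨min _ _, lt_min hθ (by positivity), min_le_left _ _, min_le_right _ _⟩
  obtain ⟨R₀, hR₀, h1⟩ := h1 ε hε
  obtain ⟨τ, hτ⟩ : ∃ τ : ℝ, τ = 2 * C₀ / (c * θ) := ⟨_, rfl⟩
  have τ0 : 0 < τ := by rw [hτ]; positivity
  obtain ⟨B, hB⟩ : ∃ B : ℝ, B = 4 * C + c + 4 * ε := ⟨_, rfl⟩
  have B0 : 0 < B := by rw [hB]; positivity
  obtain ⟨D, hD⟩ : ∃ D : ℝ, D = C₃ * (B + 1) := ⟨_, rfl⟩
  have D0 : 0 < D := by rw [hD]; positivity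
  refine ⟨(K / (4 * τ * (B + C₅))) ^ 2, 32, τ, by positivity, by norm_num, τ0, fun η hη => ?_⟩
  obtain ⟨a, ha, a1, a2, a3, a4, a5, a6, a7⟩ : ∃ a : ℝ, 0 < a ∧ a ≤ η ∧ a ≤ 1 / 8 ∧ a ≤ R₀ ∧ a ≤ R₁ ∧
      a ≤ R₂ ∧ a ≤ R₃ ∧ a ≤ (K / (4 * C₅ * τ)) ^ 2 := by
    refine ⟨min (min (min η (1 / 8)) (min R₀ R₁)) (min (min R₂ R₃) ((K / (4 * C₅ * τ)) ^ 2)),
      by positivity, ?_⟩
    simp only [min_le_iff, le_refl, true_or, or_true, and_self]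
  obtain ⟨M, hM⟩ : ∃ M : ℝ, M = 1 + B + C₄ + D + C₆ * D := ⟨_, rfl⟩
  have CD : 0 < C₆ * D := by positivity
  have M0 : 0 < M := by rw [hM]; positivity
  refine ⟨min η ((a / M) ^ 2 / τ), by positivity, fun lam hl hl0 => ?_⟩
  obtain ⟨R, hR⟩ : ∃ R : ℝ, R = √(τ * lam) := ⟨_, rfl⟩
  rw [← hR]
  have R0 : 0 < R := by rw [hR]; positivity
  have R2 : R ^ 2 = τ * lam := by rw [hR, Real.sq_sqrt (by positivity)]
  have RM : M * R ≤ a := by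
    rw [← le_div_iff₀' M0, hR]
    exact Real.sqrt_le_iff.2 ⟨by positivity, (le_div_iff₀' τ0).1 (hl0.trans (min_le_right _ _))⟩
  have key : ∀ x : ℝ, x ≤ M → x * R ≤ a := fun x hx =>
    (mul_le_mul_of_nonneg_right hx R0.le).trans RM
  have Ra : R ≤ a := by simpa using key 1 (by linarith)
  have RR : R ^ 2 ≤ R := by nlinarith
  have key2 : ∀ x : ℝ, 0 ≤ x → x ≤ M → x * R ^ 2 ≤ a := fun x h0 hx =>
    (mul_le_mul_of_nonneg_left RR h0).trans (key x hx)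
  have b1 := key2 B B0.le (by linarith)
  have b2 := key2 D D0.le (by linarith)
  have b3 := key2 _ CD.le (by linarith)
  have b4 := key (B + C₄) (by linarith)
  have b5 := key D (by linarith)
  obtain ⟨g, g1, g2, g3, g4, g5, g6, g7⟩ := h1 R R0 (Ra.trans a3)
  have ob : OB R c C ε g :=
    ⟨R0, hc, hC.le, hε.le, by rw [← hB]; linarith, g1, g2, g3, g5, g6, g7⟩
  obtain ⟨t4, t3⟩ := htr R c C ε lam g ob hl.le
  have t0 : 4 * ε * R ^ 2 + lam * C₀ ≤ θ * (c * R ^ 2) := by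
    have e1 : lam * C₀ = θ * (c * R ^ 2) / 2 := by rw [R2, hτ]; field_simp
    have e2 := mul_le_mul_of_nonneg_right ε2 (sq_nonneg R)
    linarith
  obtain ⟨ψ, E₄, h4⟩ := ground4 (θ := θ) ob hl.le (by linarith) (by linarith)
  obtain ⟨Φ, E₃, γ, h3⟩ := ground3 (θ := θ) ob hl.le (by linarith) (by linarith)
  obtain ⟨l1, l2, l3, l4⟩ := lev_Main ob (by linarith) h4 h3
  rw [← hB] at l1 l2 l3 l4
  have q4 : qf (UN R lam) ψ ψ = E₄ := by rw [h4.eig, h4.n, mul_one]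
  have q3 : qf (UN R lam) Φ Φ = E₃ := by rw [h3.eig, h3.n, mul_one]
  have u4 := (abs_le.1 l1).2
  have u3 := (abs_le.1 l3).2
  obtain ⟨d1, d2⟩ := hdf R lam (B * R ^ 2) ψ R0 (Ra.trans a4) hl.le h4.n h4.a01 h4.a23
    (by linarith) (by positivity)
  rw [show C₃ * (B * R ^ 2 + R ^ 2) = D * R ^ 2 by rw [hD]; ring] at d1 d2
  refine ⟨ψ, Φ, E₄, E₃, γ, R0, Ra.trans a1, hl, hl0.trans (min_le_left _ _), h4.n, h4.eig, h4.a01,
    h4.a23, h4.sw, h4.ev, h4.min22, h4.min31, h3.n, h3.eig, h3.a12, h3.od, h3.pos, h3.gap,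
    by linarith, by linarith, fun b => ?_, ?_, ?_, ?_, ?_, ?_, ?_, ?_⟩
  · exact (mul_le_mul_of_nonneg_right (by linarith) (ip_nonneg b)).trans (ob.low2 hl.le b)
  · have := kin_le_UN R hl.le ψ
    rw [q4, h4.n] at this
    push_cast at this
    linarith
  · have := kin_le_UN R hl.le Φ
    rw [q3, h3.n] at this
    push_cast at this
    linarith
  · have := hhy R lam ψ R0 (Ra.trans a6) hl.le h4.n (by linarith)
    have e := mul_le_mul_of_nonneg_left RR B0.le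
    linarith
  · have w1 := hwe g ψ θ g1 g2 (g4.trans ε1) h4.near
    have w2 : W * √θ ≤ K / 2 := by
      have : √θ ≤ K / (2 * W) := Real.sqrt_le_iff.2 ⟨by positivity, θ2⟩
      rw [le_div_iff₀ (by positivity)] at this
      linarith
    exact (occ_Main hK τ0 hl R2 R0.le B0.le hC₅ l1 (by linarith)
      (hth R lam E₄ _ ψ R0 (Ra.trans a5) h4.eig h4.a01 h4.a23 d1) (b5.trans a7)).trans (thet_occ ψ)
  · linarith [occ_one_le h4.n, h4.oz]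
  · obtain ⟨b, e1, e2⟩ := dys_main g1 g2 h4.n h3.n (h4.ev 2) h3.od (by linarith [h4.near])
      (by linarith [h3.near])
    exact ⟨b, e1, by linarith [d1 0]⟩
  · obtain ⟨b, e1, e2⟩ := hco g ψ _ g1 g2 (by linarith) h4.n h4.a01 h4.a23 h4.ev
      (by linarith [h4.near]) (d1 0) d2
    exact ⟨b, e1, by linarith⟩

end Vale.Agent.P363
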