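import Vale.Agent.P363.M.Res

/-!
# P363 M/Bess

A converse Bessel inequality: the distance to the span of the orbital products is controlled by
the slot deficits.
-/

open MeasureTheory Filter Topology Set
open scoped ContDiff

set_option linter.unusedSectionVars false

noncomputable section

namespace Vale.Agent.P363

theorem prod_mem_Bess {κ : Type} (φ : κ → S e3) {n : ℕ} (s : Fin n → κ) :
    MemLp (fun X : Cfg n => ∏ i, (φ (s i)).f (X i)) 2 volume := (prd fun i => φ (s i)).mem

theorem peel_Bess {κ : Type} [Fintype κ] (φ : κ → S e3) {n : ℕ} {f : Cfg (n + 1) → ℝ}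
    (hf : MemLp f 2 volume) :
    ∑ s : Fin (n + 1) → κ, (∫ X, (∏ i, (φ (s i)).f (X i)) * f X) ^ 2 =
      ∑ k, ∑ s : Fin n → κ, (∫ Y, (∏ i, (φ (s i)).f (Y i)) * red 0 (φ k).f f Y) ^ 2 := by
  rw [← (Fin.consEquiv fun _ => κ).sum_comp, Fintype.sum_prod_type]
  refine Finset.sum_congr rfl fun k _ => Finset.sum_congr rfl fun s _ => ?_
  congr 1
  simp only [mul_comm _ (red 0 (φ k).f f _)]
  rw [← integral_red 0 (φ k).mem hf (prod_mem_Bess φ s)]
  simp [Fin.prod_univ_succ, Fin.consEquiv, Fin.removeNth]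

theorem bessel_conv {κ : Type} [Fintype κ] [DecidableEq κ] {φ : κ → S e3}
    (ho : ∀ j l, ip (φ j) (φ l) = if j = l then 1 else 0) (n : ℕ) {f : Cfg (n + 1) → ℝ}
    (hf : MemLp f 2 volume) :
    (∫ X, f X ^ 2) - ∑ s : Fin (n + 1) → κ, (∫ X, (∏ i, (φ (s i)).f (X i)) * f X) ^ 2 ≤
      ∑ i, ((∫ X, f X ^ 2) - ∑ k, occ i (φ k).f f) := by
  induction n with
  | zero =>
    have e : (volume : Measure (Cfg 0)).real univ = 1 := by
      simp [Measure.real, volume_pi]
    rw [peel_Bess φ hf]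
    simp [occ, integral_unique, e]
  | succ n ih =>
    rw [peel_Bess φ hf, Fin.sum_univ_succ]
    have h1 := Finset.sum_le_sum fun k (_ : k ∈ Finset.univ) => ih (red_memLp 0 (φ k).mem hf).1
    have h2 := Finset.sum_le_sum fun i (_ : i ∈ Finset.univ) => incl_excl ho i hf
    rw [Finset.sum_comm] at h2
    rw [Finset.sum_sub_distrib] at h1
    simp only [occ] at h1 h2 ⊢
    linarith

end Vale.Agent.P363
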