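import Vale.Agent.P363.A.Fib3
import Vale.Agent.P363.A.Min
import Vale.Agent.P363.H.Main
import Vale.Agent.P363.B.Harnack
import Vale.Agent.P363.F.Build

/-!
# P363 M/Defs

Definitions for block M (no task).
-/

open MeasureTheory Filter Topology Set
open scoped ContDiff

set_option linter.unusedSectionVars false

noncomputable section

namespace Vale.Agent.P363

/-- The three-electron trial state. -/
def det3 (a b : S e3) : S (eN 3) := (√2)⁻¹ • (prd ![a, a, b] - prd ![a, b, a])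

/-- The doubly excited product used to detect the `2s` admixture. -/
def thet : S (eN 4) := prd ![orb 1, orb 0, orb 1, orb 0]

/-- Lower bound for the lowest one-body level. -/
def lvG (R ε : ℝ) (g : S e3) : ℝ := qf (VR R) g g - ε * R ^ 2

/-- Lower bound for the second one-body level. -/
def lvZ (R ε : ℝ) : ℝ := qf (VR R) (orb 4) (orb 4) - ε * R ^ 2

/-- The output of `one_body`. -/
structure OB (R c C ε : ℝ) (g : S e3) : Prop where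
  R0 : 0 < R
  c0 : 0 < c
  C0 : 0 ≤ C
  ε0 : 0 ≤ ε
  sm : (4 * C + c + 4 * ε) * R ^ 2 ≤ 1 / 8
  n : ip g g = 1
  o : ip g (orb 4) = 0
  ev : ∀ k x, g.f (rf k x) = g.f x
  eg : |qf (VR R) g g + 1 / 2| ≤ C * R ^ 2
  ez : |qf (VR R) (orb 4) (orb 4) + 1 / 8| ≤ C * R ^ 2
  low : ∀ a : S e3, lvG R ε g * ip g a ^ 2 + lvZ R ε * ip (orb 4) a ^ 2 +
    (qf (VR R) (orb 4) (orb 4) + c * R ^ 2) * (ip a a - ip g a ^ 2 - ip (orb 4) a ^ 2) ≤
      qf (VR R) a a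

/-- The four-electron ground state. -/
structure G4 (R lam c ε θ : ℝ) (g : S e3) (ψ : S (eN 4)) (E : ℝ) : Prop where
  n : ip ψ ψ = 1
  eig : ∀ b, qf (UN R lam) ψ b = E * ip ψ b
  a01 : Anti 0 1 ψ.f
  a23 : Anti 2 3 ψ.f
  sw : ∀ᵐ X : Cfg 4, ψ.f (X ∘ (Equiv.swap 0 2 * Equiv.swap 1 3 : Equiv.Perm (Fin 4))) = ψ.f X
  ev : ∀ k, ∀ᵐ X : Cfg 4, ψ.f (fun i => rf k (X i)) = ψ.f X
  min22 : ∀ b : S (eN 4), Anti 0 1 b.f → Anti 2 3 b.f → E * ip b b ≤ qf (UN R lam) b b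
  min31 : ∀ b : S (eN 4), Anti 0 1 b.f → Anti 1 2 b.f → E * ip b b ≤ qf (UN R lam) b b
  lo : 2 * lvG R ε g + 2 * lvZ R ε ≤ E
  hi : E ≤ 2 * lvG R ε g + 2 * lvZ R ε + θ * (c * R ^ 2)
  near : ip (ψ - det4 g (orb 4)) (ψ - det4 g (orb 4)) ≤ 2 * θ
  oz : 2 - θ ≤ ∑ i, occ i (orb 4).f ψ.f

/-- The three-electron ground state. -/
structure G3 (R lam c ε θ : ℝ) (g : S e3) (Φ : S (eN 3)) (E γ : ℝ) : Prop where
  n : ip Φ Φ = 1
  eig : ∀ b, qf (UN R lam) Φ b = E * ip Φ b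
  a12 : Anti 1 2 Φ.f
  od : ∀ᵐ Y : Cfg 3, Φ.f (fun i => rf 2 (Y i)) = -Φ.f Y
  pos : 0 < γ
  gap : ∀ b : S (eN 3), Anti 1 2 b.f → E * ip b b + γ * (ip b b - ip Φ b ^ 2) ≤ qf (UN R lam) b b
  lo : 2 * lvG R ε g + lvZ R ε ≤ E
  hi : E ≤ 2 * lvG R ε g + lvZ R ε + θ * (c * R ^ 2)
  near : ip (Φ - det3 g (orb 4)) (Φ - det3 g (orb 4)) ≤ 2 * θ

end Vale.Agent.P363
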