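import Vale.Agent.P363.M.Ovl
import Vale.Agent.P363.M.Low

/-!
# P363 M/Gr  (TASK; helper names end in `_Gr`)

Ground states.  `sym_of_unique`: `eigen_unique` for `b = T a` (`Sym.qf`, `Sym.ip`) gives `a ∘ τ = t a` a.e., `t = ip a (T a)`; `ip d (T a) = ip (T d) a = s ip d a` (`Sym.ip_swap`, `ip_congr`)
and `= t ip d a`.  `ground4`: `exists_min (fb_UN ..)` on `N = symSub (swap 0 1) (-1) ⊓ symSub (swap 2 3) (-1)` (`anti_iff`, `Sym.closed`), `d = det4 g z`, `A = 2 e1 + 2 ez + c R²`, `C = c R²`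
(`low4`, `ovl4`).  `eig`: `Sym.eigen_extend` first with `swap 0 1` and `N = symSub (swap 2 3) (-1)` (`Anti.perm`), then with `swap 2 3` and `N = ⊤`.  `T ψ ∈ N` for `sw` by `Anti.perm`
(`Anti.symm`), for `ev` because the reflection commutes with the swap (`Sym.mp.quasiMeasurePreserving.ae`).  With `α = ip d ψ ∈ (0, 1]`: `c R² (1 - α²) ≤ E - 2 e1 - 2 ez ≤ θ c R²`,
`ip (ψ - d) (ψ - d) = 2 - 2 α ≤ 2 (1 - α²)`.  `ground3` is the same with `N = symSub (swap 1 2) (-1)`, `γ = A - E`.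
-/

open MeasureTheory Filter Topology Set
open scoped ContDiff

set_option linter.unusedSectionVars false

noncomputable section

namespace Vale.Agent.P363

theorem sym_of_unique {n : ℕ} {τ : Cfg n → Cfg n} {T : S (eN n) → S (eN n)} (h : Sym (eN n) τ T)
    (hτ : ∀ x, τ (τ x) = x) {U : Cfg n → ℝ} (hU : ∀ x, U (τ x) = U x) {a d : S (eN n)} {E γ s : ℝ}
    (hγ : 0 < γ) (ha : ip a a = 1) (hE : qf U a a = E)
    (gap : E * ip (T a) (T a) + γ * (ip (T a) (T a) - ip a (T a) ^ 2) ≤ qf U (T a) (T a))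
    (hd : ∀ x, d.f (τ x) = s * d.f x) (hda : ip d a ≠ 0) : ∀ᵐ x, a.f (τ x) = s * a.f x := by
  have hu := eigen_unique hγ ha gap (by rw [h.qf hU, h.ip, hE, ha, mul_one])
  have e1 : ip (T a) d = ip a (T a) * ip a d := by
    rw [← bil_ip.smul]
    exact ip_congr (hu.mono fun x hx => by simp only [S.smul_f, hx]) d
  have e2 : ip (T d) a = s * ip d a := by
    rw [← bil_ip.smul]
    exact ip_congr (Eventually.of_forall fun x => by simp only [S.smul_f, h.f, hd]) a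
  have e3 : ip a (T a) = s := by
    rw [h.ip_swap hτ, bil_ip.symm a (T d), e2, bil_ip.symm a d] at e1
    exact (mul_right_cancel₀ hda e1).symm
  filter_upwards [hu] with x hx
  rw [← h.f, hx, e3]

theorem swap_swap_Gr {n : ℕ} (i j : Fin n) (X : Cfg n) :
    (X ∘ Equiv.swap i j) ∘ Equiv.swap i j = X := by
  funext k
  simp only [Function.comp_apply, Equiv.swap_apply_self]

theorem anti_rf_Gr {n : ℕ} {k : Fin 3} {T : S (eN n) → S (eN n)}
    (h : Sym (eN n) (fun X i => rf k (X i)) T) {i j : Fin n} {a : S (eN n)} (ha : Anti i j a.f) :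
    Anti i j (T a).f := by
  filter_upwards [h.mp.quasiMeasurePreserving.ae ha] with X hX
  rw [h.f, h.f]
  exact hX

theorem anti_perm_Gr {n : ℕ} {π : Equiv.Perm (Fin n)} {T : S (eN n) → S (eN n)}
    (h : Sym (eN n) (fun X => X ∘ π) T) {i j i' j' : Fin n} (hi : π i = i') (hj : π j = j')
    {a : S (eN n)} (ha : Anti i j a.f) : Anti i' j' (T a).f := by
  have e : (T a).f = fun X => a.f (X ∘ π) := funext fun X => h.f a X
  rw [e, ← hi, ← hj]
  exact ha.perm π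

theorem near_Gr {n : ℕ} {a d : S (eN n)} {B K θ E : ℝ} (hK : 0 < K) (ha : ip a a = 1)
    (hd : ip d d = 1) (h0 : 0 < ip d a) (h1 : B + K - K * ip d a ^ 2 ≤ E) (h2 : E ≤ B + θ * K) :
    B ≤ E ∧ ip (a - d) (a - d) ≤ 2 * θ := by
  have cs := bil_ip.cs ip_nonneg d a
  rw [ha, hd, mul_one] at cs
  have h3 : 1 - ip d a ^ 2 ≤ θ := by
    refine le_of_mul_le_mul_right ?_ hK
    nlinarith
  have h4 : ip d a ≤ 1 := by nlinarith
  refine ⟨by nlinarith, ?_⟩
  rw [bil_ip.sub_sq, ha, hd, bil_ip.symm a d]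
  nlinarith

variable {R c C ε lam θ : ℝ} {g : S e3}

theorem ground4 (h : OB R c C ε g) (hl : 0 ≤ lam) (hθ : θ < 1)
    (ht : qf (UN R lam) (det4 g (orb 4)) (det4 g (orb 4)) ≤
      2 * lvG R ε g + 2 * lvZ R ε + θ * (c * R ^ 2)) : ∃ ψ E, G4 R lam c ε θ g ψ E := by
  have hK : 0 < c * R ^ 2 := mul_pos h.c0 (pow_pos h.R0 2)
  have hz : ip (orb 4) (orb 4) = 1 := by rw [ip_orb, if_pos rfl]
  obtain ⟨T1, hT1, -⟩ := exists_sym_perm (Equiv.swap (0 : Fin 4) 1)
  obtain ⟨T2, hT2, -⟩ := exists_sym_perm (Equiv.swap (2 : Fin 4) 3)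
  have hd1 := ip_det4 h.n hz h.o
  have hlow : ∀ b : S (eN 4), Anti 0 1 b.f → Anti 2 3 b.f →
      (2 * lvG R ε g + 2 * lvZ R ε + c * R ^ 2) * ip b b -
        c * R ^ 2 * ip (det4 g (orb 4)) b ^ 2 ≤ qf (UN R lam) b b := by
    intro b h01 h23
    have a1 := (h.low4 hl h01 h23).2.2
    have a2 := mul_le_mul_of_nonneg_left (ovl4 h.n hz h.o h01 h23) hK.le
    linarith
  obtain ⟨ψ, hψ, E, n1, p1, hE, eg, gap⟩ := exists_min (fb_UN R lam)
    (symSub (eN 4) (fun X => X ∘ Equiv.swap (0 : Fin 4) 1) (-1) ⊓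
      symSub (eN 4) (fun X => X ∘ Equiv.swap (2 : Fin 4) 3) (-1))
    (fun u a hu hl => ⟨hT1.closed (-1) u a (fun m => (hu m).1) hl,
      hT2.closed (-1) u a (fun m => (hu m).2) hl⟩)
    (d := det4 g (orb 4)) ⟨anti_iff.1 (det4_anti _ _).1, anti_iff.1 (det4_anti _ _).2⟩ hd1
    (A := 2 * lvG R ε g + 2 * lvZ R ε + c * R ^ 2) (C := c * R ^ 2) (by nlinarith)
    fun b hb => hlow b (anti_iff.2 hb.1) (anti_iff.2 hb.2)
  have a01 : Anti 0 1 ψ.f := anti_iff.2 hψ.1
  have a23 : Anti 2 3 ψ.f := anti_iff.2 hψ.2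
  have hq : qf (UN R lam) ψ ψ = E := by rw [eg ψ hψ, n1, mul_one]
  have hi := hE.trans ht
  have hγ : 0 < 2 * lvG R ε g + 2 * lvZ R ε + c * R ^ 2 - E := by nlinarith
  have gap' : ∀ b : S (eN 4), Anti 0 1 b.f → Anti 2 3 b.f → E * ip b b +
      (2 * lvG R ε g + 2 * lvZ R ε + c * R ^ 2 - E) * (ip b b - ip ψ b ^ 2) ≤ qf (UN R lam) b b :=
    fun b h01 h23 => gap b ⟨anti_iff.1 h01, anti_iff.1 h23⟩
  have nr := near_Gr (B := 2 * lvG R ε g + 2 * lvZ R ε) hK n1 hd1 p1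
    (by have := hlow ψ a01 a23; rwa [n1, hq, mul_one] at this) hi
  refine ⟨ψ, E, n1, ?_, a01, a23, ?_, ?_, ?_, ?_, nr.1, hi, nr.2, ?_⟩
  · have s1 := hT1.eigen_extend (swap_swap_Gr 0 1) (fb_UN R lam) (UN_perm R lam _) (E := E)
      (by norm_num) hψ.1 (symSub (eN 4) (fun X => X ∘ Equiv.swap (2 : Fin 4) 3) (-1))
      (fun b hb => anti_iff.1 (anti_perm_Gr hT1 (by decide) (by decide) (anti_iff.2 hb)))
      fun b hb hb' => eg b ⟨hb', hb⟩
    have s2 := hT2.eigen_extend (swap_swap_Gr 2 3) (fb_UN R lam) (UN_perm R lam _) (E := E)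
      (by norm_num) hψ.2 ⊤ (fun _ _ => Submodule.mem_top) fun b _ hb' => s1 b hb'
    exact fun b => s2 b Submodule.mem_top
  · obtain ⟨T, hT, -⟩ := exists_sym_perm (Equiv.swap 0 2 * Equiv.swap 1 3 : Equiv.Perm (Fin 4))
    have := sym_of_unique hT (s := 1) (d := det4 g (orb 4))
      (fun X => by
        funext k
        simp only [Function.comp_apply]
        congr 1
        revert k
        decide)
      (UN_perm R lam _) hγ n1 hq
      (gap' _ (anti_perm_Gr hT (by decide) (by decide) a23)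
        (anti_perm_Gr hT (by decide) (by decide) a01))
      (fun X => by rw [one_mul]; exact det4_sw _ _ X) p1.ne'
    simpa only [one_mul] using this
  · intro k
    obtain ⟨T, hT⟩ := exists_sym_rfN 4 k
    have := sym_of_unique hT (s := 1) (d := det4 g (orb 4))
      (fun X => by simp only [rf_rf]) (UN_rf R lam k) hγ n1 hq
      (gap' _ (anti_rf_Gr hT a01) (anti_rf_Gr hT a23))
      (fun X => by rw [one_mul]; exact det4_rf h.ev k X) p1.ne'
    simpa only [one_mul] using this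
  · intro b h01 h23
    have cs := bil_ip.cs ip_nonneg ψ b
    rw [n1, one_mul] at cs
    have := gap' b h01 h23
    have := mul_nonneg hγ.le (sub_nonneg.2 cs)
    linarith
  · intro b h01 h12
    have := h.low31 hl h01 h12
    have := mul_nonneg hγ.le (ip_nonneg b)
    linarith
  · obtain ⟨b1, -, b3⟩ := h.low4 hl a01 a23
    rw [n1] at b1 b3
    rw [hq] at b3
    have : 4 - ∑ i, occ i g.f ψ.f - ∑ i, occ i (orb 4).f ψ.f ≤ θ := by
      refine le_of_mul_le_mul_left ?_ hK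
      linarith
    linarith
theorem ground3 (h : OB R c C ε g) (hl : 0 ≤ lam) (hθ : θ < 1)
    (ht : qf (UN R lam) (det3 g (orb 4)) (det3 g (orb 4)) ≤
      2 * lvG R ε g + lvZ R ε + θ * (c * R ^ 2)) : ∃ Φ E γ, G3 R lam c ε θ g Φ E γ := by
  have hK : 0 < c * R ^ 2 := mul_pos h.c0 (pow_pos h.R0 2)
  have hz : ip (orb 4) (orb 4) = 1 := by rw [ip_orb, if_pos rfl]
  obtain ⟨T1, hT1, -⟩ := exists_sym_perm (Equiv.swap (1 : Fin 3) 2)
  have hd1 := ip_det3 h.n hz h.o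
  have hlow : ∀ b : S (eN 3), Anti 1 2 b.f →
      (2 * lvG R ε g + lvZ R ε + c * R ^ 2) * ip b b -
        c * R ^ 2 * ip (det3 g (orb 4)) b ^ 2 ≤ qf (UN R lam) b b := by
    intro b h12
    have a1 := h.low3 hl h12
    have a2 := mul_le_mul_of_nonneg_left (ovl3 h.n hz h.o h12) hK.le
    linarith
  obtain ⟨ψ, hψ, E, n1, p1, hE, eg, gap⟩ := exists_min (fb_UN R lam)
    (symSub (eN 3) (fun X => X ∘ Equiv.swap (1 : Fin 3) 2) (-1))
    (fun u a hu hl => hT1.closed (-1) u a hu hl)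
    (d := det3 g (orb 4)) (anti_iff.1 (det3_anti _ _)) hd1
    (A := 2 * lvG R ε g + lvZ R ε + c * R ^ 2) (C := c * R ^ 2) (by nlinarith)
    fun b hb => hlow b (anti_iff.2 hb)
  have a12 : Anti 1 2 ψ.f := anti_iff.2 hψ
  have hq : qf (UN R lam) ψ ψ = E := by rw [eg ψ hψ, n1, mul_one]
  have hi := hE.trans ht
  have hγ : 0 < 2 * lvG R ε g + lvZ R ε + c * R ^ 2 - E := by nlinarith
  have nr := near_Gr (B := 2 * lvG R ε g + lvZ R ε) hK n1 hd1 p1
    (by have := hlow ψ a12; rwa [n1, hq, mul_one] at this) hi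
  refine ⟨ψ, E, _, n1, ?_, a12, ?_, hγ, fun b hb => gap b (anti_iff.1 hb), nr.1, hi, nr.2⟩
  · have s2 := hT1.eigen_extend (swap_swap_Gr 1 2) (fb_UN R lam) (UN_perm R lam _) (E := E)
      (by norm_num) hψ ⊤ (fun _ _ => Submodule.mem_top) fun b _ hb' => eg b hb'
    exact fun b => s2 b Submodule.mem_top
  · obtain ⟨T, hT⟩ := exists_sym_rfN 3 2
    have := sym_of_unique hT (s := -1) (d := det3 g (orb 4))
      (fun X => by simp only [rf_rf]) (UN_rf R lam 2) hγ n1 hq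
      (gap _ (anti_iff.1 (anti_rf_Gr hT a12)))
      (fun X => by rw [neg_one_mul]; exact det3_rf h.ev X) p1.ne'
    simpa only [neg_one_mul] using this

end Vale.Agent.P363
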