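import Vale.Agent.P363.M.Bess
import Vale.Agent.P363.M.Det

/-!
# P363 M/Ovl  (TASK; helper names end in `_Ovl`)

Overlap with the trial states.  `ip_prd_swap`: apply the measure preserving swap (`exists_sym_perm`, `Sym.integral`) to `X ↦ ∏ k, (φ k).f (X k) * b.f X`, reindex the product with
`Equiv.prod_comp`.  `ovl4`: `bessel_conv` with `κ = Fin 2`, `φ = ![g, z]`; write the sum over `s : Fin 4 → Fin 2` as an iterated sum (`Fintype.sum_equiv (Fin.consEquiv ..)`, or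
`(by decide : univ = {![0,0,0,0], ..})`, or `Fin.sum_pi_succ`-like lemmas); with `c a b c d = ip (prd ![a,b,c,d]) b`: `c a a _ _ = 0 = c _ _ a a`, the four others are `± c g z g z`, and
`ip (det4 g z) b = 2 c g z g z`.  `ovl3`: the surviving coefficients are `± c g g z` (`ip (det3 g z) b ^ 2 = 2 (c g g z) ^ 2`) and `± c z g z`; `2 (c z g z) ^ 2 ≤ occ 0 z b` by `ip_tens_sq_le`
with `Φ = prd ![g, z] - prd ![z, g]` (`ip Φ Φ = 2`, `ip (tens 0 z Φ) b = 2 c z g z`).
-/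

open MeasureTheory Filter Topology Set
open scoped ContDiff

set_option linter.unusedSectionVars false

noncomputable section

namespace Vale.Agent.P363

theorem ip_prd_swap {n : ℕ} {i j : Fin n} {b : S (eN n)} (h : Anti i j b.f) (φ : Fin n → S e3) :
    ip (prd (φ ∘ Equiv.swap i j)) b = -ip (prd φ) b := by
  obtain ⟨T, hT, -⟩ := exists_sym_perm (Equiv.swap i j)
  have h1 := hT.integral fun X => (prd (φ ∘ Equiv.swap i j)).f X * b.f X
  unfold ip
  rw [← h1, ← integral_neg]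
  refine integral_congr_ae ?_
  filter_upwards [h] with X hX
  rw [hX, prd_f, prd_f]
  have h2 : ∏ k, ((φ ∘ Equiv.swap i j) k).f ((X ∘ Equiv.swap i j) k) = ∏ k, (φ k).f (X k) :=
    Equiv.prod_comp (Equiv.swap i j) fun k => (φ k).f (X k)
  rw [h2]
  ring

theorem ip_prd_eq {n : ℕ} {i j : Fin n} {b : S (eN n)} (h : Anti i j b.f) {φ : Fin n → S e3}
    (hφ : φ i = φ j) : ip (prd φ) b = 0 := by
  have h1 := ip_prd_swap h φ
  have h2 : φ ∘ Equiv.swap i j = φ := by
    funext k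
    exact Equiv.apply_swap_eq_self hφ k
  rw [h2] at h1
  linarith

theorem on_Ovl {g z : S e3} (hg : ip g g = 1) (hz : ip z z = 1) (ho : ip g z = 0) :
    ∀ j l : Fin 2, ip ((![g, z] : Fin 2 → S e3) j) ((![g, z] : Fin 2 → S e3) l) =
      if j = l then 1 else 0 := by
  have ho' : ip z g = 0 := by rw [bil_ip.symm, ho]
  intro j l
  fin_cases j <;> fin_cases l <;> simp [hg, hz, ho, ho']

theorem sum4_Ovl (F : (Fin 4 → Fin 2) → ℝ) :
    ∑ s, F s = ∑ a, ∑ b, ∑ c, ∑ d, F ![a, b, c, d] := by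
  let e : (Fin 2 × Fin 2 × Fin 2 × Fin 2) ≃ (Fin 4 → Fin 2) :=
    { toFun := fun p => ![p.1, p.2.1, p.2.2.1, p.2.2.2]
      invFun := fun s => (s 0, s 1, s 2, s 3)
      left_inv := fun p => rfl
      right_inv := fun s => by
        funext k
        fin_cases k <;> rfl }
  rw [← e.sum_comp F]
  simp only [Fintype.sum_prod_type]
  rfl

theorem sum3_Ovl (F : (Fin 3 → Fin 2) → ℝ) :
    ∑ s, F s = ∑ a, ∑ b, ∑ c, F ![a, b, c] := by
  let e : (Fin 2 × Fin 2 × Fin 2) ≃ (Fin 3 → Fin 2) :=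
    { toFun := fun p => ![p.1, p.2.1, p.2.2]
      invFun := fun s => (s 0, s 1, s 2)
      left_inv := fun p => rfl
      right_inv := fun s => by
        funext k
        fin_cases k <;> rfl }
  rw [← e.sum_comp F]
  simp only [Fintype.sum_prod_type]
  rfl

theorem coef4_Ovl (φ : Fin 2 → S e3) (p q r t : Fin 2) :
    (fun i : Fin 4 => φ ((![p, q, r, t] : Fin 4 → Fin 2) i)) = ![φ p, φ q, φ r, φ t] := by
  funext k
  fin_cases k <;> rfl

theorem coef3_Ovl (φ : Fin 2 → S e3) (p q r : Fin 2) :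
    (fun i : Fin 3 => φ ((![p, q, r] : Fin 3 → Fin 2) i)) = ![φ p, φ q, φ r] := by
  funext k
  fin_cases k <;> rfl

theorem bess_Ovl {φ : Fin 2 → S e3} (ho : ∀ j l, ip (φ j) (φ l) = if j = l then 1 else 0) {n : ℕ}
    (b : S (eN (n + 1))) :
    ip b b - ∑ s : Fin (n + 1) → Fin 2, ip (prd fun i => φ (s i)) b ^ 2 ≤
      ∑ i, (ip b b - (occ i (φ 0).f b.f + occ i (φ 1).f b.f)) := by
  have h1 := bessel_conv ho n b.mem
  rw [← ip_self] at h1
  simp only [Fin.sum_univ_two] at h1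
  exact h1

theorem sw01_Ovl {b : S (eN 4)} (h : Anti 0 1 b.f) (p q r t : S e3) :
    ip (prd ![q, p, r, t]) b = -ip (prd ![p, q, r, t]) b := by
  rw [← ip_prd_swap h]
  congr 2
  funext k
  fin_cases k <;> rfl

theorem sw23_Ovl {b : S (eN 4)} (h : Anti 2 3 b.f) (p q r t : S e3) :
    ip (prd ![p, q, t, r]) b = -ip (prd ![p, q, r, t]) b := by
  rw [← ip_prd_swap h]
  congr 2
  funext k
  fin_cases k <;> rfl

theorem sw12_Ovl {b : S (eN 3)} (h : Anti 1 2 b.f) (p q r : S e3) :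
    ip (prd ![p, r, q]) b = -ip (prd ![p, q, r]) b := by
  rw [← ip_prd_swap h]
  congr 2
  funext k
  fin_cases k <;> rfl

theorem ovl4 {g z : S e3} (hg : ip g g = 1) (hz : ip z z = 1) (ho : ip g z = 0) {b : S (eN 4)}
    (h01 : Anti 0 1 b.f) (h23 : Anti 2 3 b.f) :
    ip b b - ip (det4 g z) b ^ 2 ≤ 4 * ip b b - ∑ i, occ i g.f b.f - ∑ i, occ i z.f b.f := by
  have h1 : ip b b - ∑ s : Fin 4 → Fin 2,
      ip (prd fun i : Fin 4 => (![g, z] : Fin 2 → S e3) (s i)) b ^ 2 ≤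
      ∑ i : Fin 4, (ip b b - (occ i g.f b.f + occ i z.f b.f)) := bess_Ovl (on_Ovl hg hz ho) b
  rw [sum4_Ovl] at h1
  simp only [coef4_Ovl, Fin.sum_univ_two, Matrix.cons_val_zero, Matrix.cons_val_one,
    Matrix.cons_val_fin_one] at h1
  have z1 : ∀ p r t : S e3, ip (prd ![p, p, r, t]) b = 0 := fun p r t => ip_prd_eq h01 rfl
  have z2 : ∀ p q r : S e3, ip (prd ![p, q, r, r]) b = 0 := fun p q r => ip_prd_eq h23 rfl
  have e1 := sw23_Ovl h23 g z g z
  have e2 := sw01_Ovl h01 g z g z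
  have e3' := sw01_Ovl h01 g z z g
  have e4 : ip (det4 g z) b = 2 * ip (prd ![g, z, g, z]) b := by
    unfold det4
    rw [bil_ip.smul, bil_ip.add, bil_ip.sub_left, bil_ip.sub_left, e3', e2, e1]
    ring
  simp only [z1, z2, e3', e2, e1] at h1
  rw [e4]
  rw [Fin.sum_univ_four] at h1
  rw [Fin.sum_univ_four, Fin.sum_univ_four]
  nlinarith [h1]

theorem ovl3 {g z : S e3} (hg : ip g g = 1) (hz : ip z z = 1) (ho : ip g z = 0) {b : S (eN 3)}
    (h12 : Anti 1 2 b.f) :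
    ip b b - ip (det3 g z) b ^ 2 ≤
      3 * ip b b - ∑ i, occ i g.f b.f - occ 1 z.f b.f - occ 2 z.f b.f := by
  have ho' : ip z g = 0 := by rw [bil_ip.symm, ho]
  have h1 : ip b b - ∑ s : Fin 3 → Fin 2,
      ip (prd fun i : Fin 3 => (![g, z] : Fin 2 → S e3) (s i)) b ^ 2 ≤
      ∑ i : Fin 3, (ip b b - (occ i g.f b.f + occ i z.f b.f)) := bess_Ovl (on_Ovl hg hz ho) b
  rw [sum3_Ovl] at h1
  simp only [coef3_Ovl, Fin.sum_univ_two, Matrix.cons_val_zero, Matrix.cons_val_one,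
    Matrix.cons_val_fin_one] at h1
  have z1 : ∀ p q : S e3, ip (prd ![p, q, q]) b = 0 := fun p q => ip_prd_eq h12 rfl
  have e1 := sw12_Ovl h12 g g z
  have e2 := sw12_Ovl h12 z g z
  have e3' : ip (det3 g z) b ^ 2 = 2 * ip (prd ![g, g, z]) b ^ 2 := by
    unfold det3
    rw [bil_ip.smul, bil_ip.sub_left, e1, mul_pow, inv_pow, Real.sq_sqrt (by norm_num)]
    ring
  have e4 := ip_tens_sq_le 0 z (prd ![g, z] - prd ![z, g]) b
  have e5 : ip (prd ![g, z] - prd ![z, g]) (prd ![g, z] - prd ![z, g]) = 2 := by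
    rw [bil_ip.sub_sq, ip_prd, ip_prd, ip_prd]
    simp [Fin.prod_univ_two, hg, hz, ho, ho']
    norm_num
  have e6 : ip (tens 0 z (prd ![g, z] - prd ![z, g])) b =
      ip (prd ![z, g, z]) b - ip (prd ![z, z, g]) b := by
    rw [← bil_ip.sub_left]
    unfold ip
    refine integral_congr_ae (Eventually.of_forall fun X => ?_)
    simp only [tens_f, S.sub_f, prd_f, Fin.prod_univ_two, Fin.prod_univ_three]
    simp [Fin.removeNth]
    left
    ring
  rw [e5, e6, e2] at e4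
  simp only [z1, e2, e1] at h1
  rw [e3']
  rw [Fin.sum_univ_three] at h1
  rw [Fin.sum_univ_three]
  nlinarith [h1, e4]

end Vale.Agent.P363
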