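import Vale.Agent.P363.M.Defs

/-!
# P363 M/Res

Inclusion-exclusion for two slots, Pauli with an extra component, Cauchy-Schwarz for tensors.
-/

open MeasureTheory Filter Topology Set
open scoped ContDiff

set_option linter.unusedSectionVars false

noncomputable section

namespace Vale.Agent.P363

variable {n : ℕ}

/-- The tensor product of a function of slot `i` and a function of the other slots. -/
def tn_Res (i : Fin (n + 1)) (φ : E3 → ℝ) (Ξ : Cfg n → ℝ) (X : Cfg (n + 1)) : ℝ :=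
  φ (X i) * Ξ (Fin.removeNth i X)

theorem tn_mem_Res (i : Fin (n + 1)) {φ : E3 → ℝ} {Ξ : Cfg n → ℝ} (hφ : MemLp φ 2 volume)
    (hΞ : MemLp Ξ 2 volume) : MemLp (tn_Res i φ Ξ) 2 volume := memLp_tensor i hφ hΞ

theorem tn_int_Res (i : Fin (n + 1)) {φ : E3 → ℝ} {f : Cfg (n + 1) → ℝ} {Ξ : Cfg n → ℝ}
    (hφ : MemLp φ 2 volume) (hf : MemLp f 2 volume) (hΞ : MemLp Ξ 2 volume) :
    ∫ X, tn_Res i φ Ξ X * f X = ∫ Y, red i φ f Y * Ξ Y := integral_red i hφ hf hΞ

theorem red_tn_Res (i : Fin (n + 1)) (χ φ : E3 → ℝ) (Ξ : Cfg n → ℝ) (Y : Cfg n) :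
    red i χ (tn_Res i φ Ξ) Y = (∫ x, χ x * φ x) * Ξ Y := by
  rw [red, ← integral_mul_const]
  simp only [tn_Res, Fin.insertNth_apply_same, Fin.removeNth_insertNth, mul_assoc]

theorem tn_tn_Res (i : Fin (n + 1)) {φ χ : S e3} {Ξ Θ : Cfg n → ℝ} (hΞ : MemLp Ξ 2 volume)
    (hΘ : MemLp Θ 2 volume) :
    ∫ X, tn_Res i φ.f Ξ X * tn_Res i χ.f Θ X = ip φ χ * ∫ Y, Θ Y * Ξ Y := by
  rw [tn_int_Res i φ.mem (tn_mem_Res i χ.mem hΘ) hΞ, ← integral_const_mul]
  simp only [red_tn_Res, mul_assoc, ip]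

theorem red_zero_tn_Res (i : Fin (n + 1)) (χ φ : E3 → ℝ) (Ξ : Cfg (n + 1) → ℝ)
    (Y : Cfg (n + 1)) :
    red 0 χ (tn_Res i.succ φ Ξ) Y = tn_Res i φ (red 0 χ Ξ) Y := by
  have e : ∀ x : E3, (Fin.removeNth i.succ (Fin.insertNth 0 x Y : Cfg (n + 2)) : Cfg (n + 1)) =
      Fin.insertNth 0 x (Fin.removeNth i Y) := fun x => by
    funext k
    refine Fin.cases ?_ (fun m => ?_) k
    · simp [Fin.removeNth]
    · simp [Fin.removeNth]
  have e2 : ∀ x : E3, (Fin.insertNth 0 x Y : Cfg (n + 2)) i.succ = Y i := fun x => by simp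
  simp only [red, tn_Res, e, e2, ← integral_const_mul, mul_left_comm]

theorem bes_Res {α J : Type} [MeasurableSpace α] {μ : Measure α} [Fintype J] {u : J → α → ℝ}
    {f : α → ℝ} (hu : ∀ j, MemLp (u j) 2 μ) (hf : MemLp f 2 μ)
    (h1 : ∀ j l, l ≠ j → ∫ x, u j x * u l x ∂μ = 0)
    (h2 : ∀ j, ∫ x, u j x * u j x ∂μ = ∫ x, u j x * f x ∂μ) :
    ∑ j, ∫ x, u j x * f x ∂μ ≤ ∫ x, f x ^ 2 ∂μ := by
  have i1 : ∀ i, Integrable (fun X => u i X * f X) μ := fun i => (hu i).integrable_mul hf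
  have i2 : ∀ i j, Integrable (fun X => u i X * u j X) μ := fun i j => (hu i).integrable_mul (hu j)
  have h5 := pauli_cs (memLp_finsetSum Finset.univ fun i _ => hu i) hf
  have h6 : ∫ X, (∑ i, u i X) * f X ∂μ = ∑ i, ∫ x, u i x * f x ∂μ := by
    simp only [Finset.sum_mul]
    rw [integral_finsetSum _ fun i _ => i1 i]
  have h7 : ∫ X, (∑ i, u i X) ^ 2 ∂μ = ∑ i, ∫ x, u i x * f x ∂μ := by
    simp only [sq (∑ i, u i _), Finset.sum_mul_sum]
    rw [integral_finsetSum _ fun i _ => integrable_finsetSum _ fun j _ => i2 i j]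
    refine Finset.sum_congr rfl fun i hi => ?_
    rw [integral_finsetSum _ fun j _ => i2 i j,
      Finset.sum_eq_single_of_mem i hi (fun l _ hl => h1 i l hl), h2]
  rw [h6, h7] at h5
  have h0 : 0 ≤ ∑ i, ∫ x, u i x * f x ∂μ := by
    rw [← h7]
    exact integral_nonneg fun _ => sq_nonneg _
  rcases h0.eq_or_lt with h0 | h0
  · rw [← h0]
    exact integral_nonneg fun _ => sq_nonneg _
  · exact le_of_mul_le_mul_left (by linarith) h0

/-- The part of `f` orthogonal to the orbitals in slot `i`. -/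
def res_Res {κ : Type} [Fintype κ] (i : Fin (n + 1)) (φ : κ → S e3) (f : Cfg (n + 1) → ℝ)
    (X : Cfg (n + 1)) : ℝ := f X - ∑ l, tn_Res i (φ l).f (red i (φ l).f f) X

theorem res_mem_Res {κ : Type} [Fintype κ] (i : Fin (n + 1)) (φ : κ → S e3) {f : Cfg (n + 1) → ℝ}
    (hf : MemLp f 2 volume) : MemLp (res_Res i φ f) 2 volume :=
  hf.sub (memLp_finsetSum Finset.univ fun l _ =>
    tn_mem_Res i (φ l).mem (red_memLp i (φ l).mem hf).1)

theorem mul_res_Res {κ : Type} [Fintype κ] (i : Fin (n + 1)) (φ : κ → S e3) {f g : Cfg (n + 1) → ℝ}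
    (hf : MemLp f 2 volume) (hg : MemLp g 2 volume) : ∫ X, g X * res_Res i φ f X =
      (∫ X, g X * f X) - ∑ l, ∫ X, g X * tn_Res i (φ l).f (red i (φ l).f f) X := by
  have i1 : ∀ l, Integrable fun X => g X * tn_Res i (φ l).f (red i (φ l).f f) X := fun l =>
    hg.integrable_mul (tn_mem_Res i (φ l).mem (red_memLp i (φ l).mem hf).1)
  simp only [res_Res, mul_sub, Finset.mul_sum]
  rw [integral_sub (fib1_mul hg hf) (integrable_finsetSum _ fun l _ => i1 l),
    integral_finsetSum _ fun l _ => i1 l]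

theorem tn_res_Res {κ : Type} [Fintype κ] [DecidableEq κ] {φ : κ → S e3}
    (ho : ∀ j l, ip (φ j) (φ l) = if j = l then 1 else 0) (i : Fin (n + 1)) {f : Cfg (n + 1) → ℝ}
    (hf : MemLp f 2 volume) (l : κ) {Ξ : Cfg n → ℝ} (hΞ : MemLp Ξ 2 volume) :
    ∫ X, tn_Res i (φ l).f Ξ X * res_Res i φ f X = 0 := by
  rw [mul_res_Res i φ hf (tn_mem_Res i (φ l).mem hΞ), tn_int_Res i (φ l).mem hf hΞ]
  simp only [fun m => tn_tn_Res i (φ := φ l) (χ := φ m) hΞ (red_memLp i (φ m).mem hf).1, ho]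
  simp

theorem f_res_Res {κ : Type} [Fintype κ] [DecidableEq κ] {φ : κ → S e3}
    (ho : ∀ j l, ip (φ j) (φ l) = if j = l then 1 else 0) (i : Fin (n + 1)) {f : Cfg (n + 1) → ℝ}
    (hf : MemLp f 2 volume) :
    ∫ X, f X * res_Res i φ f X = (∫ X, f X ^ 2) - ∑ l, occ i (φ l).f f ∧
    ∫ X, res_Res i φ f X * res_Res i φ f X = ∫ X, f X * res_Res i φ f X := by
  constructor
  · rw [mul_res_Res i φ hf hf]
    simp only [mul_comm (f _) (tn_Res _ _ _ _),
      fun l => tn_int_Res i (φ l).mem hf (red_memLp i (φ l).mem hf).1, occ, sq]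
  · rw [mul_res_Res i φ hf (res_mem_Res i φ hf)]
    simp only [mul_comm (res_Res i φ f _) (tn_Res _ _ _ _),
      fun l => tn_res_Res ho i hf l (red_memLp i (φ l).mem hf).1, mul_comm (res_Res i φ f _) (f _)]
    simp

/-- Inclusion-exclusion for the slots `0` and `succ i`. -/
theorem incl_excl {κ : Type} [Fintype κ] [DecidableEq κ] {φ : κ → S e3}
    (ho : ∀ j l, ip (φ j) (φ l) = if j = l then 1 else 0) (i : Fin (n + 1))
    {f : Cfg (n + 2) → ℝ} (hf : MemLp f 2 volume) :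
    ∑ k, (occ 0 (φ k).f f - ∑ l, occ i (φ l).f (red 0 (φ k).f f)) ≤
      (∫ X, f X ^ 2) - ∑ l, occ i.succ (φ l).f f := by
  have ha := fun k => (red_memLp 0 (φ k).mem hf).1
  have hb := fun l => (red_memLp i.succ (φ l).mem hf).1
  have hw := fun k => res_mem_Res i φ (ha k)
  have hW := fun k => tn_mem_Res 0 (φ k).mem (hw k)
  have hB := fun l => tn_mem_Res i.succ (φ l).mem (hb l)
  have hWB : ∀ k l, ∫ X, tn_Res 0 (φ k).f (res_Res i φ (red 0 (φ k).f f)) X *
      tn_Res i.succ (φ l).f (red i.succ (φ l).f f) X = 0 := fun k l => by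
    rw [tn_int_Res 0 (φ k).mem (hB l) (hw k)]
    simp only [red_zero_tn_Res]
    exact tn_res_Res ho i (ha k) l (red_memLp 0 (φ k).mem (hb l)).1
  have h := bes_Res (J := κ ⊕ κ) (f := f) (u := Sum.elim
    (fun k => tn_Res 0 (φ k).f (res_Res i φ (red 0 (φ k).f f)))
    fun l => tn_Res i.succ (φ l).f (red i.succ (φ l).f f)) (fun j => by
      rcases j with k | l
      · exact hW k
      · exact hB l) hf (fun j l hl => by
      rcases j with k | k <;> rcases l with l | l <;> simp only [Sum.elim_inl, Sum.elim_inr]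
      · rw [tn_tn_Res 0 (hw k) (hw l), ho, if_neg fun e => hl (by rw [e]), zero_mul]
      · exact hWB k l
      · simpa only [mul_comm] using hWB l k
      · rw [tn_tn_Res _ (hb k) (hb l), ho, if_neg fun e => hl (by rw [e]), zero_mul])
    fun j => by
      rcases j with k | k <;> simp only [Sum.elim_inl, Sum.elim_inr]
      · rw [tn_tn_Res 0 (hw k) (hw k), ho, if_pos rfl, one_mul, tn_int_Res 0 (φ k).mem hf (hw k),
          (f_res_Res ho i (ha k)).2]
      · rw [tn_tn_Res _ (hb k) (hb k), ho, if_pos rfl, one_mul, tn_int_Res _ (φ k).mem hf (hb k)]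
  have e := fun k => tn_int_Res i.succ (φ k).mem hf (hb k)
  simp only [Fintype.sum_sum_type, Sum.elim_inl, Sum.elim_inr,
    fun k => tn_int_Res 0 (φ k).mem hf (hw k), e, fun k => (f_res_Res ho i (ha k)).1] at h
  simp only [occ, sq] at h ⊢
  linarith

theorem occ_sub_Res (i : Fin (n + 1)) (φ : S e3) {a t : S (eN (n + 1))}
    (hi : ∀ Y, red i φ.f t.f Y = 0) : occ i φ.f a.f ≤ occ i φ.f (a - t).f := by
  have hΞ := (red_memLp i φ.mem a.mem).1
  have hu := (red_memLp i φ.mem (a - t).mem).1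
  have h1 : ∫ Y, red i φ.f (a - t).f Y * red i φ.f a.f Y = occ i φ.f a.f := by
    rw [← tn_int_Res i φ.mem (a - t).mem hΞ]
    simp only [S.sub_f, mul_sub]
    rw [integral_sub (fib1_mul (tn_mem_Res i φ.mem hΞ) a.mem)
      (fib1_mul (tn_mem_Res i φ.mem hΞ) t.mem), tn_int_Res i φ.mem a.mem hΞ,
      tn_int_Res i φ.mem t.mem hΞ]
    simp only [hi, zero_mul, integral_zero, sub_zero, occ, sq]
  have h2 := pauli_cs hu hΞ
  rw [h1] at h2
  change _ ≤ occ i φ.f (a - t).f * occ i φ.f a.f at h2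
  rcases (occ_nonneg i φ.f a.f).eq_or_lt with h0 | h0
  · rw [← h0]
    exact occ_nonneg _ _ _
  · exact le_of_mul_le_mul_left (by linarith) h0

/-- Pauli with an extra component. -/
theorem occ_add_le {i j : Fin (n + 1)} (hij : i ≠ j) {φ : S e3} (hφ : ip φ φ = 1)
    {a t : S (eN (n + 1))} (ha : Anti i j a.f) (ht : Anti i j t.f) (hi : ∀ Y, red i φ.f t.f Y = 0)
    (hj : ∀ Y, red j φ.f t.f Y = 0) : occ i φ.f a.f + occ j φ.f a.f ≤ ip (a - t) (a - t) := by
  have h1 : Anti i j (a - t).f := anti_iff.2 (sub_mem (anti_iff.1 ha) (anti_iff.1 ht))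
  have h2 := pauli {i, j} (a - t).mem (fun k hk l hl hkl => by
    simp only [Finset.mem_insert, Finset.mem_singleton] at hk hl
    rcases hk with rfl | rfl <;> rcases hl with rfl | rfl
    · exact absurd rfl hkl
    · exact h1
    · exact h1.symm
    · exact absurd rfl hkl) φ.mem
  rw [Finset.sum_pair hij, ← ip_self, ← ip_self, hφ, one_mul] at h2
  linarith [occ_sub_Res i φ (a := a) hi, occ_sub_Res j φ (a := a) hj]

theorem ip_tens_sq_le (i : Fin (n + 1)) (φ : S e3) (Φ : S (eN n)) (a : S (eN (n + 1))) :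
    ip (tens i φ Φ) a ^ 2 ≤ occ i φ.f a.f * ip Φ Φ := by
  have h1 : ip (tens i φ Φ) a = ∫ Y, red i φ.f a.f Y * Φ.f Y := integral_red i φ.mem a.mem Φ.mem
  rw [h1, ip_self]
  exact pauli_cs (red_memLp i φ.mem a.mem).1 Φ.mem

end Vale.Agent.P363
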